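import Mathlib
import Vale.Agent.Lib.Brouwer

/-! Schauder's fixed point theorem for compact convex sets in normed spaces. -/

open Set Metric

namespace Vale.Agent.P084b

variable {X : Type*} [NormedAddCommGroup X] [NormedSpace ℝ X]

theorem comb_mem {K : Set X} (hc : Convex ℝ K) {x₀ : X} (hx₀ : x₀ ∈ K) {ι : Type*} [Fintype ι]
    (p : ι → X) (hp : ∀ i, p i ∈ K) (μ : ι → ℝ) (h0 : ∀ i, 0 ≤ μ i) (h1 : ∑ i, μ i ≤ 1) :
    x₀ + ∑ i, μ i • (p i - x₀) ∈ K := by
  have h := hc.sum_mem (t := (Finset.univ : Finset (Option ι)))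
    (w := fun o => o.elim (1 - ∑ i, μ i) μ) (z := fun o => o.elim x₀ p)
    (by rintro (_ | i) _
        · simpa using h1
        · simpa using h0 i)
    (by simp [Fintype.sum_option])
    (by rintro (_ | i) _
        · simpa using hx₀
        · simpa using hp i)
  have e : x₀ + ∑ i, μ i • (p i - x₀) = (1 - ∑ i, μ i) • x₀ + ∑ i, μ i • p i := by
    simp only [smul_sub, Finset.sum_sub_distrib, sub_smul, one_smul, Finset.sum_smul]
    abel
  rw [e]
  simpa [Fintype.sum_option] using h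

theorem approx_fixed {K : Set X} (hK : IsCompact K) (hc : Convex ℝ K) {x₀ : X} (hx₀ : x₀ ∈ K)
    {T : X → X} (hT : ContinuousOn T K) (hTK : MapsTo T K K) {η : ℝ} (hη : 0 < η) :
    ∃ x ∈ K, ‖T x - x‖ ≤ η := by
  obtain ⟨s, hsK, hs, hcov⟩ := finite_cover_balls_of_compact hK hη
  haveI : Fintype s := hs.fintype
  obtain ⟨φ, hφ⟩ : ∃ φ : (s → ℝ) → X, φ = fun l =>
      x₀ + ∑ i : s, (max (l i) 0 / max 1 (∑ j : s, max (l j) 0)) • ((i : X) - x₀) := ⟨_, rfl⟩
  have hφc : Continuous φ := by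
    rw [hφ]
    refine continuous_const.add (continuous_finsetSum _ fun i _ => Continuous.smul ?_ continuous_const)
    refine Continuous.div (by fun_prop) (by fun_prop) fun l => ?_
    exact (lt_of_lt_of_le zero_lt_one (le_max_left _ _)).ne'
  have hφK : ∀ l, φ l ∈ K := by
    intro l
    rw [hφ]
    have hm : (0 : ℝ) < max 1 (∑ j : s, max (l j) 0) := lt_of_lt_of_le zero_lt_one (le_max_left _ _)
    refine comb_mem hc hx₀ _ (fun i => hsK i.2) _ (fun i => div_nonneg (le_max_right _ _) hm.le) ?_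
    rw [← Finset.sum_div, div_le_one hm]
    exact le_max_right _ _
  obtain ⟨w, hw⟩ : ∃ w : X → s → ℝ, w = fun y (i : s) => max (η - ‖y - (i : X)‖) 0 := ⟨_, rfl⟩
  have hw0 : ∀ y i, 0 ≤ w y i := fun y i => by rw [hw]; exact le_max_right _ _
  have hS : ∀ y ∈ K, 0 < ∑ i, w y i := by
    intro y hy
    obtain ⟨i, hi, hyi⟩ := mem_iUnion₂.1 (hcov hy)
    refine Finset.sum_pos' (fun j _ => hw0 y j) ⟨⟨i, hi⟩, Finset.mem_univ _, ?_⟩
    rw [hw]
    rw [mem_ball, dist_eq_norm] at hyi
    exact lt_of_lt_of_le (by simpa using hyi) (le_max_left _ _)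
  have hTφ : Continuous (T ∘ φ) := hT.comp_continuous hφc hφK
  have hwc : ∀ i, Continuous fun l => w (T (φ l)) i := by
    intro i
    rw [hw]
    exact (continuous_const.sub (hTφ.sub continuous_const).norm).max continuous_const
  obtain ⟨l, hl⟩ := Vale.Agent.Lib.Brouwer.exists_fixed
    (fun (l : s → ℝ) (i : s) => w (T (φ l)) i / ∑ j, w (T (φ l)) j)
    (continuous_pi fun i => (hwc i).div (continuous_finsetSum _ fun j _ => hwc j)
      fun l => (hS _ (hTK (hφK l))).ne') 1 (by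
      intro l
      refine (pi_norm_le_iff_of_nonneg zero_le_one).2 fun i => ?_
      have hp := hS _ (hTK (hφK l))
      rw [Real.norm_of_nonneg (div_nonneg (hw0 _ _) hp.le), div_le_one hp]
      exact Finset.single_le_sum (f := fun j => w (T (φ l)) j) (fun j _ => hw0 _ j)
        (Finset.mem_univ i))
  refine ⟨φ l, hφK l, ?_⟩
  obtain ⟨y, hy⟩ : ∃ y, y = T (φ l) := ⟨_, rfl⟩
  have hp := hS _ (hTK (hφK l))
  rw [← hy] at hp hl ⊢
  have hli : ∀ i, l i = w y i / ∑ j, w y j := fun i => (congrFun hl i).symm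
  have hl0 : ∀ i, 0 ≤ l i := fun i => by rw [hli]; exact div_nonneg (hw0 _ _) hp.le
  have hl1 : ∑ i, l i = 1 := by
    rw [Finset.sum_congr rfl fun i _ => hli i, ← Finset.sum_div, div_self hp.ne']
  have e : y - φ l = ∑ i : s, l i • (y - (i : X)) := by
    rw [hφ]
    simp only [max_eq_left (hl0 _), hl1, max_self, div_one, smul_sub, Finset.sum_sub_distrib,
      ← Finset.sum_smul, one_smul]
    abel
  rw [e]
  calc ‖∑ i : s, l i • (y - (i : X))‖ ≤ ∑ i : s, l i * η := by
        refine (norm_sum_le _ _).trans (Finset.sum_le_sum fun i _ => ?_)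
        rw [norm_smul, Real.norm_of_nonneg (hl0 i)]
        rcases le_or_gt ‖y - (i : X)‖ η with h | h
        · exact mul_le_mul_of_nonneg_left h (hl0 i)
        · have : l i = 0 := by
            rw [hli, hw]
            simp only [max_eq_right (by linarith : η - ‖y - (i : X)‖ ≤ 0), zero_div]
          rw [this, zero_mul, zero_mul]
    _ = η := by rw [← Finset.sum_mul, hl1, one_mul]

theorem schauder {K : Set X} (hK : IsCompact K) (hc : Convex ℝ K) {x₀ : X} (hx₀ : x₀ ∈ K)
    {T : X → X} (hT : ContinuousOn T K) (hTK : MapsTo T K K) : ∃ x ∈ K, T x = x := by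
  obtain ⟨x, hx, hmin⟩ := hK.exists_isMinOn ⟨x₀, hx₀⟩ (f := fun x => ‖T x - x‖)
    (hT.sub continuousOn_id).norm
  refine ⟨x, hx, ?_⟩
  rw [← sub_eq_zero, ← norm_le_zero_iff]
  refine le_of_forall_pos_le_add fun η hη => ?_
  obtain ⟨y, hy, h⟩ := approx_fixed hK hc hx₀ hT hTK hη
  have := hmin hy
  simp only [mem_ofPred_eq] at this
  linarith

end Vale.Agent.P084b
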