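import Mathlib
import Vale.Agent.P084b.Schauder

/-! A Darbo type fixed point theorem. -/

open Set Metric

namespace Vale.Agent.P084b

/-- Finite colourings with colour classes of `d`-diameter almost `r`. -/
def Kur {P : Type*} (V : Set P) (d : P → P → ℝ) (r : ℝ) : Prop :=
  ∀ η : ℝ, 0 < η → ∃ (n : ℕ) (c : P → Fin n), ∀ x ∈ V, ∀ y ∈ V, c x = c y → d x y ≤ r + η

theorem col_of_finite {P ι : Type*} [Finite ι] (c : P → ι) :
    ∃ (n : ℕ) (c' : P → Fin n), ∀ x y, c' x = c' y → c x = c y := by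
  obtain ⟨n, ⟨e⟩⟩ := Finite.exists_equiv_fin ι
  exact ⟨n, fun x => e (c x), fun x y h => e.injective h⟩

namespace Kur

variable {P Q : Type*}

theorem of_bound {V : Set P} {d : P → P → ℝ} {r : ℝ} (h : ∀ x ∈ V, ∀ y ∈ V, d x y ≤ r) :
    Kur V d r := fun η hη =>
  ⟨1, fun _ => 0, fun x hx y hy _ => (h x hx y hy).trans (by linarith)⟩

theorem mono {V W : Set P} {d : P → P → ℝ} {r : ℝ} (h : Kur W d r) (hVW : V ⊆ W) : Kur V d r :=
  fun η hη => by
    obtain ⟨n, c, hc⟩ := h η hη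
    exact ⟨n, c, fun x hx y hy => hc x (hVW hx) y (hVW hy)⟩

theorem of_forall {V : Set P} {d : P → P → ℝ} {r : ℝ} (h : ∀ η, 0 < η → Kur V d (r + η)) :
    Kur V d r := fun η hη => by
  obtain ⟨n, c, hc⟩ := h (η / 2) (by linarith) (η / 2) (by linarith)
  exact ⟨n, c, fun x hx y hy e => (hc x hx y hy e).trans (by linarith)⟩

theorem comap {V : Set P} {W : Set Q} {d : Q → Q → ℝ} {r : ℝ} (h : Kur W d r) (π : P → Q)
    (hπ : MapsTo π V W) : Kur V (fun x y => d (π x) (π y)) r := fun η hη => by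
  obtain ⟨n, c, hc⟩ := h η hη
  exact ⟨n, fun x => c (π x), fun x hx y hy e => hc _ (hπ hx) _ (hπ hy) e⟩

theorem comb3 {V : Set P} {d d₁ d₂ d₃ : P → P → ℝ} {r r₁ r₂ r₃ : ℝ} (h₁ : Kur V d₁ r₁)
    (h₂ : Kur V d₂ r₂) (h₃ : Kur V d₃ r₃)
    (H : ∀ η, 0 < η → ∃ δ, 0 < δ ∧ ∀ x ∈ V, ∀ y ∈ V, d₁ x y ≤ r₁ + δ → d₂ x y ≤ r₂ + δ →
      d₃ x y ≤ r₃ + δ → d x y ≤ r + η) : Kur V d r := fun η hη => by
  obtain ⟨δ, hδ, H⟩ := H η hη
  obtain ⟨n₁, c₁, hc₁⟩ := h₁ δ hδ
  obtain ⟨n₂, c₂, hc₂⟩ := h₂ δ hδ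
  obtain ⟨n₃, c₃, hc₃⟩ := h₃ δ hδ
  obtain ⟨n, c, hc⟩ := col_of_finite (fun x => (c₁ x, c₂ x, c₃ x))
  refine ⟨n, c, fun x hx y hy e => ?_⟩
  have e' := hc x y e
  simp only [Prod.mk.injEq] at e'
  exact H x hx y hy (hc₁ x hx y hy e'.1) (hc₂ x hx y hy e'.2.1) (hc₃ x hx y hy e'.2.2)

theorem image {V : Set P} {d : Q → Q → ℝ} {r : ℝ} (G : P → Q)
    (h : Kur V (fun x y => d (G x) (G y)) r) : Kur (G '' V) d r := fun η hη => by
  classical
  obtain ⟨n, c, hc⟩ := h η hη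
  obtain ⟨m, c', hc'⟩ := col_of_finite
    (fun y : Q => if h : ∃ x ∈ V, G x = y then some (c h.choose) else none)
  refine ⟨m, c', fun x hx y hy e => ?_⟩
  have e' := hc' x y e
  have hx' : ∃ a ∈ V, G a = x := hx
  have hy' : ∃ a ∈ V, G a = y := hy
  simp only [dif_pos hx', dif_pos hy', Option.some.injEq] at e'
  have := hc _ hx'.choose_spec.1 _ hy'.choose_spec.1 e'
  simpa only [hx'.choose_spec.2, hy'.choose_spec.2] using this

theorem insert {V : Set P} {d : P → P → ℝ} {r : ℝ} (h : Kur V d r) (v : P) (hv : d v v ≤ r) :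
    Kur (insert v V) d r := fun η hη => by
  classical
  obtain ⟨n, c, hc⟩ := h η hη
  obtain ⟨m, c', hc'⟩ := col_of_finite (fun y : P => if y = v then none else some (c y))
  refine ⟨m, c', fun x hx y hy e => ?_⟩
  have e' := hc' x y e
  by_cases h1 : x = v <;> by_cases h2 : y = v
  · rw [h1, h2]; linarith
  · simp [h1, h2] at e'
  · simp [h1, h2] at e'
  · simp only [h1, h2, if_false, Option.some.injEq] at e'
    exact hc x (hx.resolve_left h1) y (hy.resolve_left h2) e'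

theorem of_totallyBounded {M : Type*} [PseudoMetricSpace M] {V : Set M} (h : TotallyBounded V) :
    Kur V dist 0 := fun η hη => by
  classical
  obtain ⟨s, hs, hcov⟩ := Metric.totallyBounded_iff.1 h (η / 2) (by linarith)
  haveI : Finite s := hs
  obtain ⟨m, c', hc'⟩ := col_of_finite
    (fun y : M => if h : ∃ x : s, y ∈ ball (x : M) (η / 2) then some h.choose else none)
  refine ⟨m, c', fun x hx y hy e => ?_⟩
  have e' := hc' x y e
  have hx' : ∃ a : s, x ∈ ball (a : M) (η / 2) := by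
    obtain ⟨i, hi, h⟩ := mem_iUnion₂.1 (hcov hx)
    exact ⟨⟨i, hi⟩, h⟩
  have hy' : ∃ a : s, y ∈ ball (a : M) (η / 2) := by
    obtain ⟨i, hi, h⟩ := mem_iUnion₂.1 (hcov hy)
    exact ⟨⟨i, hi⟩, h⟩
  simp only [dif_pos hx', dif_pos hy', Option.some.injEq] at e'
  have h1 := mem_ball.1 hx'.choose_spec
  have h2 := mem_ball.1 hy'.choose_spec
  rw [← e'] at h2
  have := dist_triangle_right x y (hx'.choose : M)
  linarith

theorem totallyBounded {M : Type*} [PseudoMetricSpace M] {V : Set M} (h : Kur V dist 0) :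
    TotallyBounded V := by
  refine totallyBounded_of_finite_discretization fun ε hε => ?_
  obtain ⟨n, c, hc⟩ := h (ε / 2) (by linarith)
  refine ⟨ULift (Fin n), inferInstance, fun x => ULift.up (c x), fun x y e => ?_⟩
  have := hc x x.2 y y.2 (ULift.up_injective e)
  linarith

theorem closure {M : Type*} [PseudoMetricSpace M] {V : Set M} {r : ℝ} (h : Kur V dist r) :
    Kur (closure V) dist r := fun η hη => by
  classical
  obtain ⟨n, c, hc⟩ := h (η / 3) (by linarith)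
  have H : ∀ x, ∃ y, x ∈ _root_.closure V → y ∈ V ∧ dist x y < η / 3 := fun x => by
    by_cases hx : x ∈ _root_.closure V
    · obtain ⟨y, hy, h⟩ := Metric.mem_closure_iff.1 hx (η / 3) (by linarith)
      exact ⟨y, fun _ => ⟨hy, h⟩⟩
    · exact ⟨x, fun h => absurd h hx⟩
  choose π hπ using H
  refine ⟨n, fun x => c (π x), fun x hx y hy e => ?_⟩
  have h1 := hc _ (hπ x hx).1 _ (hπ y hy).1 e
  have h2 := (hπ x hx).2
  have h3 := (hπ y hy).2
  have h4 := dist_triangle4_right x y (π x) (π y)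
  linarith

variable {X : Type*} [NormedAddCommGroup X] [NormedSpace ℝ X]

theorem convexJoin {A B : Set X} {r : ℝ} (hA : Kur A dist r) (hB : Kur B dist r)
    (hA1 : ∀ x ∈ A, ‖x‖ ≤ 1) (hB1 : ∀ x ∈ B, ‖x‖ ≤ 1) : Kur (convexJoin ℝ A B) dist r := by
  have key : Kur ((fun p : X × X × ℝ => (1 - p.2.2) • p.1 + p.2.2 • p.2.1) ''
      (A ×ˢ B ×ˢ Icc (0 : ℝ) 1)) dist r := by
    refine image _ (comb3 (hA.comap Prod.fst fun p hp => hp.1)
      (hB.comap (fun p : X × X × ℝ => p.2.1) fun p hp => hp.2.1)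
      ((of_totallyBounded (totallyBounded_Icc (0 : ℝ) 1)).comap (fun p : X × X × ℝ => p.2.2)
        fun p hp => hp.2.2) fun η hη => ⟨η / 3, by linarith, ?_⟩)
    rintro ⟨p, q, l⟩ ⟨hp, hq, hl⟩ ⟨p', q', l'⟩ ⟨hp', hq', hl'⟩ h1 h2 h3
    simp only [dist_eq_norm] at h1 h2 h3 hp hq hl hp' hq' hl' ⊢
    have e : (1 - l) • p + l • q - ((1 - l') • p' + l' • q')
        = (1 - l) • (p - p') + l • (q - q') + (l - l') • (q' - p') := by module
    rw [e]
    have n1 : ‖(1 - l) • (p - p')‖ ≤ (1 - l) * (r + η / 3) := by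
      rw [norm_smul, Real.norm_of_nonneg (by linarith [hl.2])]
      exact mul_le_mul_of_nonneg_left h1 (by linarith [hl.2])
    have n2 : ‖l • (q - q')‖ ≤ l * (r + η / 3) := by
      rw [norm_smul, Real.norm_of_nonneg hl.1]
      exact mul_le_mul_of_nonneg_left h2 hl.1
    have n3 : ‖(l - l') • (q' - p')‖ ≤ (0 + η / 3) * 2 := by
      rw [norm_smul]
      refine mul_le_mul h3 ?_ (norm_nonneg _) (by linarith)
      have := norm_sub_le q' p'
      have := hA1 _ hp'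
      have := hB1 _ hq'
      linarith
    have n4 := norm_add₃_le (a := (1 - l) • (p - p')) (b := l • (q - q'))
      (c := (l - l') • (q' - p'))
    linarith
  refine key.mono fun x hx => ?_
  obtain ⟨a, ha, b, hb, hx⟩ := mem_convexJoin.1 hx
  rw [segment_eq_image] at hx
  obtain ⟨l, hl, rfl⟩ := hx
  exact ⟨(a, b, l), ⟨ha, hb, hl⟩, rfl⟩

theorem convexHull {A : Set X} {r : ℝ} (hA : Kur A dist r) (hA1 : ∀ x ∈ A, ‖x‖ ≤ 1) :
    Kur (convexHull ℝ A) dist r := by
  refine of_forall fun η hη => ?_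
  obtain ⟨n, c, hc⟩ := hA η hη
  have hb : ∀ S ⊆ A, ∀ x ∈ _root_.convexHull ℝ S, ‖x‖ ≤ 1 := by
    intro S hS x hx
    have : _root_.convexHull ℝ S ⊆ closedBall 0 1 :=
      convexHull_min (fun y hy => mem_closedBall_zero_iff.2 (hA1 y (hS hy))) (convex_closedBall _ _)
    exact mem_closedBall_zero_iff.1 (this hx)
  have key : ∀ s : Finset (Fin n), Kur (_root_.convexHull ℝ {x | x ∈ A ∧ c x ∈ s}) dist (r + η) := by
    intro s
    induction s using Finset.induction_on with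
    | empty => exact of_bound (by simp)
    | insert i s _ ih =>
      have h1 : Kur (_root_.convexHull ℝ {x | x ∈ A ∧ c x = i}) dist (r + η) := by
        refine of_bound fun x hx y hy => ?_
        obtain ⟨x', hx', y', hy', h⟩ := convexHull_exists_dist_ge2 hx hy
        exact h.trans (hc x' hx'.1 y' hy'.1 (hx'.2.trans hy'.2.symm))
      have e : {x | x ∈ A ∧ c x ∈ Insert.insert i s}
          = {x | x ∈ A ∧ c x = i} ∪ {x | x ∈ A ∧ c x ∈ s} := by
        ext x
        simp only [Finset.mem_insert, mem_union, mem_ofPred_eq]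
        tauto
      rw [e]
      rcases Set.eq_empty_or_nonempty {x | x ∈ A ∧ c x = i} with h2 | h2
      · rw [h2, empty_union]; exact ih
      rcases Set.eq_empty_or_nonempty {x | x ∈ A ∧ c x ∈ s} with h3 | h3
      · rw [h3, union_empty]; exact h1
      rw [convexHull_union h2 h3]
      exact convexJoin h1 ih (hb _ fun x hx => hx.1) (hb _ fun x hx => hx.1)
  have := key Finset.univ
  simpa using this

end Kur

theorem darbo {X : Type*} [NormedAddCommGroup X] [NormedSpace ℝ X] [CompleteSpace X] {C : Set X}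
    (hCc : IsClosed C) (hCv : Convex ℝ C) (hCb : ∀ x ∈ C, ‖x‖ ≤ 1) {v₀ : X} (hv₀ : v₀ ∈ C)
    {T : X → X} (hT : ContinuousOn T C) (hTC : MapsTo T C C) {κ L : ℝ} (hκ0 : 0 ≤ κ) (hκ : κ < 1)
    (hL : 0 ≤ L) (p q : X → ℝ) (hp : ∀ x ∈ C, p x ∈ Icc (0 : ℝ) 2)
    (hq : ∀ x ∈ C, q x ∈ Icc (0 : ℝ) 2)
    (H : ∀ x ∈ C, ∀ y ∈ C, ‖T x - T y‖ ≤ κ * ‖x - y‖ + L * (|p x - p y| + |q x - q y|)) :
    ∃ x ∈ C, T x = x := by
  obtain ⟨𝓕, h𝓕⟩ : ∃ 𝓕 : Set (Set X),
      𝓕 = {S | IsClosed S ∧ Convex ℝ S ∧ v₀ ∈ S ∧ S ⊆ C ∧ MapsTo T S S} := ⟨_, rfl⟩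
  have hC𝓕 : C ∈ 𝓕 := by rw [h𝓕]; exact ⟨hCc, hCv, hv₀, Subset.rfl, hTC⟩
  obtain ⟨K, hK⟩ : ∃ K, K = ⋂₀ 𝓕 := ⟨_, rfl⟩
  have hKS : ∀ S ∈ 𝓕, K ⊆ S := fun S hS => by rw [hK]; exact sInter_subset_of_mem hS
  have hKc : IsClosed K := by
    rw [hK]; exact isClosed_sInter fun S hS => by rw [h𝓕] at hS; exact hS.1
  have hKv : Convex ℝ K := by
    rw [hK]; exact convex_sInter fun S hS => by rw [h𝓕] at hS; exact hS.2.1
  have hK0 : v₀ ∈ K := by
    rw [hK]; exact mem_sInter.2 fun S hS => by rw [h𝓕] at hS; exact hS.2.2.1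
  have hKC : K ⊆ C := hKS C hC𝓕
  have hTK : MapsTo T K K := by
    intro x hx
    rw [hK]
    refine mem_sInter.2 fun S hS => ?_
    have := hKS S hS hx
    rw [h𝓕] at hS
    exact hS.2.2.2.2 this
  have hsub : insert v₀ (T '' K) ⊆ K := insert_subset hK0 hTK.image_subset
  have hK' : closure (convexHull ℝ (insert v₀ (T '' K))) ⊆ K :=
    closure_minimal (convexHull_min hsub hKv) hKc
  have hKK' : K ⊆ closure (convexHull ℝ (insert v₀ (T '' K))) := by
    refine hKS _ ?_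
    rw [h𝓕]
    refine ⟨isClosed_closure, (convex_convexHull _ _).closure, ?_, hK'.trans hKC, ?_⟩
    · exact subset_closure (subset_convexHull _ _ (mem_insert _ _))
    · intro x hx
      exact subset_closure (subset_convexHull _ _ (mem_insert_of_mem _ ⟨x, hK' hx, rfl⟩))
  have step : ∀ r, 0 ≤ r → Kur K dist r → Kur K dist (κ * r) := by
    intro r hr h
    have h1 : Kur (T '' K) dist (κ * r) := by
      refine Kur.image _ (Kur.comb3 h
        ((Kur.of_totallyBounded (totallyBounded_Icc (0 : ℝ) 2)).comap p fun x hx => hp x (hKC hx))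
        ((Kur.of_totallyBounded (totallyBounded_Icc (0 : ℝ) 2)).comap q fun x hx => hq x (hKC hx))
        fun η hη => ⟨η / (1 + 2 * L), by positivity, ?_⟩)
      intro x hx y hy h1 h2 h3
      obtain ⟨δ, hδ⟩ : ∃ δ, δ = η / (1 + 2 * L) := ⟨_, rfl⟩
      have hδ0 : 0 < δ := by rw [hδ]; positivity
      have hδ1 : δ * (1 + 2 * L) = η := by rw [hδ]; field_simp
      rw [← hδ] at h1 h2 h3
      rw [dist_eq_norm] at h1 ⊢
      rw [Real.dist_eq] at h2 h3
      have h4 := H x (hKC hx) y (hKC hy)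
      have h5 := mul_le_mul_of_nonneg_left h1 hκ0
      have h6 : L * (|p x - p y| + |q x - q y|) ≤ L * (2 * δ) :=
        mul_le_mul_of_nonneg_left (by linarith) hL
      have h7 : κ * δ ≤ 1 * δ := mul_le_mul_of_nonneg_right hκ.le hδ0.le
      linarith
    have h2 := h1.insert v₀ (by rw [dist_self]; positivity)
    exact ((h2.convexHull fun x hx => hCb x (hKC (hsub hx))).closure).mono hKK'
  have iter : ∀ n : ℕ, Kur K dist (κ ^ n * 2) := by
    intro n
    induction n with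
    | zero =>
      refine Kur.of_bound fun x hx y hy => ?_
      have := hCb x (hKC hx)
      have := hCb y (hKC hy)
      have := norm_sub_le x y
      rw [dist_eq_norm]; linarith
    | succ n ih =>
      have := step _ (by positivity) ih
      rwa [← mul_assoc, ← pow_succ'] at this
  have h0 : Kur K dist 0 := by
    intro η hη
    obtain ⟨n, hn⟩ := exists_pow_lt_of_lt_one (by linarith : 0 < η / 4) hκ
    obtain ⟨m, c, hc⟩ := iter n (η / 2) (by linarith)
    exact ⟨m, c, fun x hx y hy e => (hc x hx y hy e).trans (by linarith)⟩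
  obtain ⟨x, hx, h⟩ := schauder (h0.totallyBounded.isCompact_of_isClosed hKc) hKv hK0
    (hT.mono hKC) hTK
  exact ⟨x, hKC hx, h⟩

end Vale.Agent.P084b
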