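import Mathlib

/-! Elementary norm estimates and the radial structure. -/

open Set Metric

namespace Vale.Agent.P084b

section
variable {E : Type*} [SeminormedAddCommGroup E] [NormedSpace ℝ E]

theorem two_of_aligned {p q : E} (hp : ‖p‖ = 1) (hq : ‖q‖ = 1) {α β : ℝ} (hα : 0 < α)
    (hβ : 0 < β) (h : α + β ≤ ‖α • p + β • q‖) : ‖p + q‖ = 2 := by
  have h2 : ‖p + q‖ ≤ 2 := (norm_add_le _ _).trans (by linarith)
  refine le_antisymm h2 ?_
  rcases le_total α β with hab | hab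
  · have e : α • p + β • q = α • (p + q) + (β - α) • q := by module
    have h3 := norm_add_le (α • (p + q)) ((β - α) • q)
    rw [← e, norm_smul, norm_smul, Real.norm_of_nonneg hα.le,
      Real.norm_of_nonneg (by linarith), hq] at h3
    have : α * 2 ≤ α * ‖p + q‖ := by linarith
    exact le_of_mul_le_mul_left this hα
  · have e : α • p + β • q = β • (p + q) + (α - β) • p := by module
    have h3 := norm_add_le (β • (p + q)) ((α - β) • p)
    rw [← e, norm_smul, norm_smul, Real.norm_of_nonneg hβ.le,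
      Real.norm_of_nonneg (by linarith), hp] at h3
    have : β * 2 ≤ β * ‖p + q‖ := by linarith
    exact le_of_mul_le_mul_left this hβ

theorem aligned_of_two {p q : E} (hp : ‖p‖ = 1) (hq : ‖q‖ = 1) {α β : ℝ} (hα : 0 ≤ α)
    (hβ : 0 ≤ β) (h : ‖p + q‖ = 2) : ‖α • p + β • q‖ = α + β := by
  refine le_antisymm ?_ ?_
  · have h3 := norm_add_le (α • p) (β • q)
    rwa [norm_smul, norm_smul, Real.norm_of_nonneg hα, Real.norm_of_nonneg hβ, hp, hq, mul_one,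
      mul_one] at h3
  rcases le_total α β with hab | hab
  · have e : β • (p + q) = (α • p + β • q) + (β - α) • p := by module
    have h3 := norm_add_le (α • p + β • q) ((β - α) • p)
    rw [← e, norm_smul, norm_smul, Real.norm_of_nonneg hβ,
      Real.norm_of_nonneg (by linarith), hp, h] at h3
    linarith
  · have e : α • (p + q) = (α • p + β • q) + (α - β) • q := by module
    have h3 := norm_add_le (α • p + β • q) ((α - β) • q)
    rw [← e, norm_smul, norm_smul, Real.norm_of_nonneg hα,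
      Real.norm_of_nonneg (by linarith), hq, h] at h3
    linarith

theorem scale_est (v₁ : E) {v₂ : E} (h₂ : ‖v₂‖ = 1) {a₁ : ℝ} (a₂ : ℝ) (ha : 0 ≤ a₁) :
    |‖a₁ • v₁ - a₂ • v₂‖ - a₁ * ‖v₁ - v₂‖| ≤ |a₁ - a₂| := by
  have h := abs_norm_sub_norm_le (a₁ • v₁ - a₂ • v₂) (a₁ • (v₁ - v₂))
  have e : a₁ • v₁ - a₂ • v₂ - a₁ • (v₁ - v₂) = (a₁ - a₂) • v₂ := by module
  rwa [e, norm_smul, norm_smul, Real.norm_of_nonneg ha, h₂, mul_one, Real.norm_eq_abs] at h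

theorem exists_exit {z : E} (hz : ‖z‖ < 1) {v : E} (hv : ‖v‖ = 1) :
    ∃ a : ℝ, 0 < a ∧ ‖z - a • v‖ = 1 := by
  have hc : ContinuousOn (fun a : ℝ => ‖z - a • v‖) (Icc 0 2) := by fun_prop
  have h2 : 1 ≤ ‖z - (2 : ℝ) • v‖ := by
    have h := norm_sub_norm_le ((2 : ℝ) • v) z
    rw [norm_smul, hv, norm_sub_rev, Real.norm_of_nonneg (by norm_num)] at h
    linarith
  obtain ⟨a, ha, h⟩ := intermediate_value_Icc (by norm_num : (0 : ℝ) ≤ 2) hc
    (show (1 : ℝ) ∈ Icc _ _ from ⟨by simpa using hz.le, h2⟩)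
  refine ⟨a, lt_of_le_of_ne ha.1 ?_, h⟩
  rintro rfl
  simp only [zero_smul, sub_zero] at h
  linarith

theorem exit_ge {z v : E} (hv : ‖v‖ = 1) {a : ℝ} (ha : 0 ≤ a) (h : ‖z - a • v‖ = 1) :
    1 - ‖z‖ ≤ a := by
  have h2 := norm_sub_le z (a • v)
  rw [h, norm_smul, hv, Real.norm_of_nonneg ha] at h2
  linarith

theorem exit_le {z v : E} (hz : ‖z‖ < 1) (hv : ‖v‖ = 1) {a : ℝ} (ha : 0 ≤ a)
    (h : ‖z - a • v‖ = 1) : a ≤ 2 := by
  have h2 := norm_sub_norm_le (a • v) z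
  rw [norm_sub_rev, h, norm_smul, hv, Real.norm_of_nonneg ha] at h2
  linarith

theorem exit_lip_aux {z v₁ v₂ : E} (hz : ‖z‖ < 1) (h₁ : ‖v₁‖ = 1) (h₂ : ‖v₂‖ = 1) {a₁ a₂ : ℝ}
    (ha₁ : 0 < a₁) (ha₂ : 0 < a₂) (e₁ : ‖z - a₁ • v₁‖ = 1) (e₂ : ‖z - a₂ • v₂‖ = 1) :
    (1 - ‖z‖) * (a₁ - a₂) ≤ 4 * ‖v₁ - v₂‖ := by
  rcases le_total a₁ a₂ with h | h
  · have := norm_nonneg (v₁ - v₂)
    have : (1 - ‖z‖) * (a₁ - a₂) ≤ 0 := mul_nonpos_of_nonneg_of_nonpos (by linarith) (by linarith)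
    linarith
  have l₁ := exit_le hz h₁ ha₁.le e₁
  have l₂ := exit_le hz h₂ ha₂.le e₂
  have e : a₁ • (z - a₂ • v₂) = ((a₁ - a₂) • z + a₂ • (z - a₁ • v₁)) + (a₁ * a₂) • (v₁ - v₂) := by
    module
  have n := norm_add₃_le (a := (a₁ - a₂) • z) (b := a₂ • (z - a₁ • v₁))
    (c := (a₁ * a₂) • (v₁ - v₂))
  rw [← e, norm_smul, norm_smul, norm_smul, norm_smul, e₁, e₂, Real.norm_of_nonneg ha₁.le,
    Real.norm_of_nonneg ha₂.le, Real.norm_of_nonneg (by linarith),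
    Real.norm_of_nonneg (by positivity)] at n
  have : a₁ * a₂ * ‖v₁ - v₂‖ ≤ 4 * ‖v₁ - v₂‖ :=
    mul_le_mul_of_nonneg_right (by nlinarith) (norm_nonneg _)
  linarith

theorem exit_lip {z v₁ v₂ : E} (hz : ‖z‖ < 1) (h₁ : ‖v₁‖ = 1) (h₂ : ‖v₂‖ = 1) {a₁ a₂ : ℝ}
    (ha₁ : 0 < a₁) (ha₂ : 0 < a₂) (e₁ : ‖z - a₁ • v₁‖ = 1) (e₂ : ‖z - a₂ • v₂‖ = 1) :
    (1 - ‖z‖) * |a₁ - a₂| ≤ 4 * ‖v₁ - v₂‖ := by
  rcases le_total a₁ a₂ with h | h
  · rw [abs_sub_comm, abs_of_nonneg (by linarith), norm_sub_rev]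
    exact exit_lip_aux hz h₂ h₁ ha₂ ha₁ e₂ e₁
  · rw [abs_of_nonneg (by linarith)]
    exact exit_lip_aux hz h₁ h₂ ha₁ ha₂ e₁ e₂

end

/-- Properties of the radial extension of a surjective isometry of unit spheres, with defect
at most `D`. -/
structure Rad {X Y : Type*} [SeminormedAddCommGroup X] [NormedSpace ℝ X]
    [SeminormedAddCommGroup Y] [NormedSpace ℝ Y] (F : X → Y) (G : Y → X) (D : ℝ) : Prop where
  norm : ∀ x, ‖F x‖ = ‖x‖
  smul : ∀ (c : ℝ) x, 0 ≤ c → F (c • x) = c • F x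
  left : ∀ x, G (F x) = x
  right : ∀ y, F (G y) = y
  near : ∀ p q, |‖F p - F q‖ - ‖p - q‖| ≤ 2 * |‖p‖ - ‖q‖|
  defect : ∀ p q, |‖F p - F q‖ - ‖p - q‖| ≤ D * max ‖p‖ ‖q‖

namespace Rad

variable {X Y : Type*} [SeminormedAddCommGroup X] [NormedSpace ℝ X]
    [SeminormedAddCommGroup Y] [NormedSpace ℝ Y] {F : X → Y} {G : Y → X} {D : ℝ}

theorem symm (h : Rad F G D) : Rad G F D where
  norm y := by rw [← h.norm, h.right]
  smul c y hc := by
    have := h.left (c • G y)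
    rwa [h.smul c _ hc, h.right] at this
  left := h.right
  right := h.left
  near p q := by
    have := h.near (G p) (G q)
    rwa [← h.norm (G p), ← h.norm (G q), h.right, h.right, abs_sub_comm] at this
  defect p q := by
    have := h.defect (G p) (G q)
    rwa [← h.norm (G p), ← h.norm (G q), h.right, h.right, abs_sub_comm] at this

theorem iso (h : Rad F G D) {p q : X} (hp : ‖p‖ = 1) (hq : ‖q‖ = 1) : ‖F p - F q‖ = ‖p - q‖ := by
  have := h.near p q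
  rw [hp, hq, sub_self, abs_zero, mul_zero, abs_nonpos_iff] at this
  linarith

theorem lip (h : Rad F G D) (p q : X) : ‖F p - F q‖ ≤ 3 * ‖p - q‖ := by
  have h1 := h.near p q
  have h2 := abs_norm_sub_norm_le p q
  have h3 := le_abs_self (‖F p - F q‖ - ‖p - q‖)
  linarith

theorem bound (h : Rad F G D) {p q : X} (hp : ‖p‖ = 1) (hq : ‖q‖ ≤ 1) :
    |‖F p - F q‖ - ‖p - q‖| ≤ D := by
  have := h.defect p q
  rwa [hp, max_eq_left hq, mul_one] at this

end Rad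

end Vale.Agent.P084b
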