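import Mathlib

/-! The planar contradiction in the proof of Tingley's extension theorem. -/

namespace Vale.Agent.P084b

/-- A seminorm on the plane, normalised on the two axes. -/
structure PN (g : ℝ → ℝ → ℝ) : Prop where
  hom : ∀ c ξ η, 0 ≤ c → g (c * ξ) (c * η) = c * g ξ η
  add : ∀ ξ η ξ' η', g (ξ + ξ') (η + η') ≤ g ξ η + g ξ' η'
  neg : ∀ ξ η, g (-ξ) (-η) = g ξ η
  ex : g 1 0 = 1
  ey : g 0 1 = 1

theorem PN.flip {g : ℝ → ℝ → ℝ} (h : PN g) : PN (fun ξ η => g ξ (-η)) where
  hom c ξ η hc := by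
    have := h.hom c ξ (-η) hc
    rwa [mul_neg] at this
  add ξ η ξ' η' := by
    have := h.add ξ (-η) ξ' (-η')
    rwa [← neg_add] at this
  neg ξ η := h.neg ξ (-η)
  ex := by simpa using h.ex
  ey := by
    have := h.neg 0 1
    rw [neg_zero] at this
    rw [this, h.ey]

theorem PN.zero_left {g : ℝ → ℝ → ℝ} (h : PN g) {η : ℝ} (hη : 0 ≤ η) : g 0 η = η := by
  have := h.hom η 0 1 hη
  rwa [mul_zero, mul_one, h.ey, mul_one] at this

theorem PN.zero_left' {g : ℝ → ℝ → ℝ} (h : PN g) {η : ℝ} (hη : 0 ≤ η) : g 0 (-η) = η :=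
  h.flip.zero_left hη

theorem PN.zero_right {g : ℝ → ℝ → ℝ} (h : PN g) {ξ : ℝ} (hξ : 0 ≤ ξ) : g ξ 0 = ξ := by
  have := h.hom ξ 1 0 hξ
  rwa [mul_zero, mul_one, h.ex, mul_one] at this

/-- Convexity along a horizontal line. -/
theorem PN.conv {g : ℝ → ℝ → ℝ} (h : PN g) (η : ℝ) {p q r : ℝ} (hpq : p ≤ q) (hqr : q ≤ r) :
    (r - p) * g q η ≤ (r - q) * g p η + (q - p) * g r η := by
  rw [← h.hom _ _ _ (by linarith : 0 ≤ r - p), ← h.hom _ _ _ (by linarith : 0 ≤ r - q),
    ← h.hom _ _ _ (by linarith : 0 ≤ q - p)]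
  have e1 : (r - p) * q = (r - q) * p + (q - p) * r := by ring
  have e2 : (r - p) * η = (r - q) * η + (q - p) * η := by ring
  rw [e1, e2]
  exact h.add _ _ _ _

/-- The aligned extremal configuration. -/
structure Conf (g g' : ℝ → ℝ → ℝ) (t D a a' b b' : ℝ) : Prop where
  pg : PN g
  pg' : PN g'
  t0 : 0 < t
  t1 : t < 1
  D0 : 0 < D
  a0 : 0 < a
  b0 : 0 < b'
  hb : b = a + D
  ha : a' = b' + D
  l2 : a + a' ≤ 2
  ua : g a (-t) = 1
  ua' : g a' t = 1
  ub : g' b (-t) = 1
  ub' : g' b' t = 1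
  H1 : ∀ τ, 0 ≤ τ → τ ≤ 1 → g' b (τ - t) ≤ g a (τ - t) + D
  H2 : ∀ τ, 0 ≤ τ → τ ≤ 1 → g a' (t - τ) ≤ g' b' (t - τ) + D
  H3 : g' b (1 - t) = g a (1 - t)
  H4 : g a' (-(1 - t)) = g' b' (-(1 - t))

namespace Conf

variable {g g' : ℝ → ℝ → ℝ} {t D a a' b b' : ℝ}

theorem symm (h : Conf g g' t D a a' b b') :
    Conf (fun ξ η => g' ξ (-η)) (fun ξ η => g ξ (-η)) t D b' b a' a where
  pg := h.pg'.flip
  pg' := h.pg.flip
  t0 := h.t0
  t1 := h.t1
  D0 := h.D0
  a0 := h.b0
  b0 := h.a0
  hb := h.ha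
  ha := h.hb
  l2 := by have := h.l2; have := h.ha; have := h.hb; linarith
  ua := by simpa using h.ub'
  ua' := h.ub
  ub := by simpa using h.ua'
  ub' := h.ua
  H1 τ h0 h1 := by simpa using h.H2 τ h0 h1
  H2 τ h0 h1 := by simpa using h.H1 τ h0 h1
  H3 := h.H4
  H4 := by simpa using h.H3

theorem I1 (h : Conf g g' t D a a' b b') (hc : b' ≤ (1 - t) * (a + a')) :
    (1 - t) * (a + a') ≤ a * b := by
  obtain ⟨pg, pg', t0, t1, D0, a0, b0, hb, ha, l2, ua, ua', ub, ub', H1, H2, H3, H4⟩ := h
  have bp : 0 < b := by linarith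
  obtain ⟨c, hcdef⟩ : ∃ c, c = b' / b := ⟨_, rfl⟩
  have c0 : 0 < c := by rw [hcdef]; positivity
  have hcb : c * b = b' := by rw [hcdef]; field_simp
  have h2 := H2 (t + c * t) (by positivity) (by
    have : (t + c * t) * b ≤ 1 * b := by
      have e : (t + c * t) * b = t * (b + b') := by rw [← hcb]; ring
      rw [e]; nlinarith
    exact le_of_mul_le_mul_right this bp)
  have e1 : t - (t + c * t) = c * (-t) := by ring
  rw [e1] at h2
  have e2 : g' b' (c * (-t)) = c := by
    rw [← hcb, pg'.hom c b (-t) c0.le, ub, mul_one]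
  have e3 : g (c * a) (c * (-t)) = c := by rw [pg.hom c a (-t) c0.le, ua, mul_one]
  have e4 : g 0 (c * (-t)) = c * t := by
    rw [mul_neg]; exact pg.zero_left' (by positivity)
  have hlt : (a' - c * a) * b = D * (a + a') := by
    have : (a' - c * a) * b = a' * b - a * (c * b) := by ring
    rw [this, hcb, hb, ha]; ring
  have hle : c * a ≤ a' := by
    have : 0 * b ≤ (a' - c * a) * b := by
      rw [hlt]; have : 0 < a' := by linarith
      rw [zero_mul]; positivity
    have := le_of_mul_le_mul_right this bp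
    linarith
  have hconv := pg.conv (c * (-t)) (p := 0) (q := c * a) (r := a') (by positivity) hle
  rw [e3, e4] at hconv
  rw [e2] at h2
  have h5 : (c * a - 0) * g a' (c * (-t)) ≤ (c * a - 0) * (c + D) :=
    mul_le_mul_of_nonneg_left h2 (by rw [sub_zero]; positivity)
  have h6 : c * ((a' - c * a) * (1 - t)) ≤ c * (a * D) := by nlinarith
  have h7 := le_of_mul_le_mul_left h6 c0
  have h8 : D * ((1 - t) * (a + a')) ≤ D * (a * b) := by
    have : (a' - c * a) * (1 - t) * b ≤ a * D * b := mul_le_mul_of_nonneg_right h7 bp.le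
    have e : (a' - c * a) * (1 - t) * b = (1 - t) * ((a' - c * a) * b) := by ring
    rw [e, hlt] at this
    nlinarith
  exact le_of_mul_le_mul_left h8 D0

theorem I2 (h : Conf g g' t D a a' b b') (hc : a ≤ (1 - t) * (a + a')) :
    (1 - t) * (a + a') ≤ b' * a' := by
  have e : b' + b = a + a' := by have := h.ha; have := h.hb; linarith
  have := h.symm.I1 (by rw [e]; exact hc)
  rwa [e] at this

theorem star (h : Conf g g' t D a a' b b') (hc : b' ≤ t * (a + a')) :
    ∃ r, a < r ∧ (r - a) * b' = D * (a + a') ∧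
      b' * g r (1 - t) ≤ b' * g a (1 - t) + D * b := by
  obtain ⟨pg, pg', t0, t1, D0, a0, b0, hb, ha, l2, ua, ua', ub, ub', H1, H2, H3, H4⟩ := h
  have bp : 0 < b := by linarith
  have ε0 : 0 < 1 - t := by linarith
  obtain ⟨c, hcdef⟩ : ∃ c, c = b' / b := ⟨_, rfl⟩
  have c0 : 0 < c := by rw [hcdef]; positivity
  have hcb : c * b = b' := by rw [hcdef]; field_simp
  obtain ⟨r, hr⟩ : ∃ r, r = a' / c := ⟨_, rfl⟩
  have hcr : c * r = a' := by rw [hr]; field_simp
  have h2 := H2 (t - c * (1 - t)) (by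
    have : 0 * b ≤ (t - c * (1 - t)) * b := by
      have e : (t - c * (1 - t)) * b = t * b - (c * b) * (1 - t) := by ring
      rw [e, hcb]; nlinarith
    exact le_of_mul_le_mul_right this bp) (by nlinarith)
  have e1 : t - (t - c * (1 - t)) = c * (1 - t) := by ring
  rw [e1] at h2
  have e2 : g' b' (c * (1 - t)) = c * g a (1 - t) := by
    rw [← hcb, pg'.hom c b _ c0.le, H3]
  have e3 : g a' (c * (1 - t)) = c * g r (1 - t) := by
    rw [← hcr, pg.hom c r _ c0.le]
  rw [e2, e3] at h2
  have hlt : (r - a) * b' = D * (a + a') := by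
    have : (r - a) * b' = (c * r) * b - a * b' := by rw [← hcb]; ring
    rw [this, hcr, hb, ha]; ring
  refine ⟨r, ?_, hlt, ?_⟩
  · have : 0 * b' < (r - a) * b' := by
      rw [hlt]; have : 0 < a' := by linarith
      rw [zero_mul]; positivity
    have := lt_of_mul_lt_mul_right this b0.le
    linarith
  · have := mul_le_mul_of_nonneg_left h2 bp.le
    rw [← hcb]
    nlinarith

theorem J1 (h : Conf g g' t D a a' b b') (hc : b' ≤ t * (a + a')) :
    (a + a') * (g a (1 - t) - (1 - t)) ≤ a * b := by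
  obtain ⟨r, har, hr, hs⟩ := h.star hc
  obtain ⟨pg, pg', t0, t1, D0, a0, b0, hb, ha, l2, ua, ua', ub, ub', H1, H2, H3, H4⟩ := h
  have hconv := pg.conv (1 - t) (p := 0) (q := a) (r := r) a0.le har.le
  rw [pg.zero_left (by linarith : 0 ≤ 1 - t)] at hconv
  have h1 : (r - a) * (g a (1 - t) - (1 - t)) ≤ a * (g r (1 - t) - g a (1 - t)) := by nlinarith
  have h2 := mul_le_mul_of_nonneg_left h1 b0.le
  have h3 : a * (b' * g r (1 - t)) ≤ a * (b' * g a (1 - t) + D * b) :=
    mul_le_mul_of_nonneg_left hs a0.le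
  have h4 : D * ((a + a') * (g a (1 - t) - (1 - t))) ≤ D * (a * b) := by
    have e : b' * ((r - a) * (g a (1 - t) - (1 - t)))
        = D * ((a + a') * (g a (1 - t) - (1 - t))) := by
      rw [← mul_assoc, mul_comm b', hr, mul_assoc]
    rw [e] at h2
    nlinarith
  exact le_of_mul_le_mul_left h4 D0

theorem J2 (h : Conf g g' t D a a' b b') (hc : a ≤ t * (a + a')) :
    (a + a') * (g a' (-(1 - t)) - (1 - t)) ≤ b' * a' := by
  have e : b' + b = a + a' := by have := h.ha; have := h.hb; linarith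
  have := h.symm.J1 (by rw [e]; exact hc)
  rw [e] at this
  rw [h.H4]
  exact this

theorem K1 (h : Conf g g' t D a a' b b') (hc : b ≤ t * (a + a')) :
    (1 - t) * (a + a') ≤ a * b' := by
  obtain ⟨pg, pg', t0, t1, D0, a0, b0, hb, ha, l2, ua, ua', ub, ub', H1, H2, H3, H4⟩ := h
  have bp : 0 < b := by linarith
  have ε0 : 0 < 1 - t := by linarith
  obtain ⟨c, hcdef⟩ : ∃ c, c = b / b' := ⟨_, rfl⟩
  have c0 : 0 < c := by rw [hcdef]; positivity
  have hcb : c * b' = b := by rw [hcdef]; field_simp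
  obtain ⟨q, hq⟩ : ∃ q, q = a / c := ⟨_, rfl⟩
  have q0 : 0 < q := by rw [hq]; positivity
  have hcq : c * q = a := by rw [hq]; field_simp
  have hτ : 0 ≤ t - c * (1 - t) := by
    have : 0 * b' ≤ (t - c * (1 - t)) * b' := by
      have e : (t - c * (1 - t)) * b' = t * b' - (c * b') * (1 - t) := by ring
      rw [e, hcb]; nlinarith
    exact le_of_mul_le_mul_right this b0
  have h1 := H1 (t - c * (1 - t)) hτ (by nlinarith)
  have e1 : t - c * (1 - t) - t = c * (-(1 - t)) := by ring
  rw [e1] at h1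
  have e2 : g' b (c * (-(1 - t))) = c * g a' (-(1 - t)) := by
    rw [← hcb, pg'.hom c b' _ c0.le, H4]
  have e3 : g a (c * (-(1 - t))) = c * g q (-(1 - t)) := by
    rw [← hcq, pg.hom c q _ c0.le]
  rw [e2, e3] at h1
  obtain ⟨k, hk⟩ : ∃ k, k = (1 - t) / t := ⟨_, rfl⟩
  have k0 : 0 < k := by rw [hk]; positivity
  have hkt : k * t = 1 - t := by rw [hk]; field_simp
  have e4 : g (k * a) (-(1 - t)) = k := by
    rw [← hkt, ← mul_neg, pg.hom k a _ k0.le, ua, mul_one]
  have e5 : g 0 (-(1 - t)) = 1 - t := pg.zero_left' ε0.le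
  have hpq : k * a ≤ q := by
    have h5 : (k * c) * t ≤ 1 * t := by
      have : (k * c) * t = c * (k * t) := by ring
      rw [this, hkt]; linarith
    have h6 := le_of_mul_le_mul_right h5 t0
    have h7 := mul_le_mul_of_nonneg_right h6 q0.le
    rw [← hcq]
    linarith
  have hlt : (a' - q) * b = D * (a + a') := by
    have : (a' - q) * b = a' * b - (c * q) * b' := by rw [← hcb]; ring
    rw [this, hcq, hb, ha]; ring
  have hqa : q ≤ a' := by
    have : 0 * b ≤ (a' - q) * b := by
      rw [hlt]; have : 0 < a' := by linarith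
      rw [zero_mul]; positivity
    have := le_of_mul_le_mul_right this bp
    linarith
  have c1 := pg.conv (-(1 - t)) (p := 0) (q := k * a) (r := q) (by positivity) hpq
  have c2 := pg.conv (-(1 - t)) (p := 0) (q := q) (r := a') q0.le hqa
  rw [e4, e5] at c1
  rw [e5] at c2
  obtain ⟨G, hG⟩ : ∃ G, G = g q (-(1 - t)) := ⟨_, rfl⟩
  obtain ⟨R, hR⟩ : ∃ R, R = g a' (-(1 - t)) := ⟨_, rfl⟩
  rw [← hG] at c1 c2 h1
  rw [← hR] at c2 h1
  -- slope from the left
  have s1 : q * (1 - t) ≤ a * (G - (1 - t)) := by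
    have : k * (q * (1 - t)) ≤ k * (a * (G - (1 - t))) := by
      have e : k * (q * (1 - t)) = q * k - q * (k * t) := by ring
      rw [hkt] at e
      linarith
    exact le_of_mul_le_mul_left this k0
  have s2 : (a' - q) * (G - (1 - t)) ≤ q * (R - G) := by linarith
  have s3 : b * (R - G) ≤ D * b' := by
    have := mul_le_mul_of_nonneg_left h1 b0.le
    rw [← hcb]; linarith
  have s4 : (a' - q) * (q * (1 - t)) ≤ a * (q * (R - G)) := by
    have u1 := mul_le_mul_of_nonneg_left s1 (by linarith : 0 ≤ a' - q)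
    have u2 := mul_le_mul_of_nonneg_left s2 a0.le
    linarith
  have s5 : (a' - q) * (1 - t) ≤ a * (R - G) := by
    have : q * ((a' - q) * (1 - t)) ≤ q * (a * (R - G)) := by linarith
    exact le_of_mul_le_mul_left this q0
  have s6 : D * ((1 - t) * (a + a')) ≤ D * (a * b') := by
    have u1 := mul_le_mul_of_nonneg_left s5 bp.le
    have u2 := mul_le_mul_of_nonneg_left s3 a0.le
    have e : b * ((a' - q) * (1 - t)) = D * ((1 - t) * (a + a')) := by
      rw [← mul_assoc, mul_comm b, hlt]; ring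
    rw [e] at u1
    linarith
  exact le_of_mul_le_mul_left s6 D0

theorem K2 (h : Conf g g' t D a a' b b') (hc : a' ≤ t * (a + a')) :
    (1 - t) * (a + a') ≤ a * b' := by
  have e : b' + b = a + a' := by have := h.ha; have := h.hb; linarith
  have := h.symm.K1 (by rw [e]; exact hc)
  rwa [e, mul_comm b'] at this

theorem RR (h : Conf g g' t D a a' b b') : a + a' ≤ g a (1 - t) + g a' (-(1 - t)) := by
  have h1 := h.pg.add a (1 - t) a' (-(1 - t))
  have a0 := h.a0
  have b0 := h.b0
  have D0 := h.D0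
  have ha := h.ha
  rwa [add_neg_cancel, h.pg.zero_right (by linarith)] at h1

theorem JJ (h : Conf g g' t D a a' b b') (h1 : b' ≤ t * (a + a')) (h2 : a ≤ t * (a + a')) :
    a * b' + a' * b ≤ 2 * ((1 - t) * (a + a')) := by
  have j1 := h.J1 h1
  have j2 := h.J2 h2
  have rr := h.RR
  have a0 := h.a0
  have b0 := h.b0
  have D0 := h.D0
  have ha := h.ha
  have hb := h.hb
  have l0 : 0 ≤ a + a' := by linarith
  have r2 := mul_le_mul_of_nonneg_left rr l0
  have e : (a + a') * (a + a') = (a + a') * (b + b') := by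
    have : b + b' = a + a' := by linarith
    rw [this]
  nlinarith

theorem case1 (h : Conf g g' t D a a' b b') (hc : a' ≤ t * (a + a')) : False := by
  have k2 := h.K2 hc
  have hc' : b' ≤ t * (a + a') := by have := h.ha; have := h.D0; linarith
  obtain ⟨r, har, hr, hs⟩ := h.star hc'
  have jj := h.JJ hc'
  obtain ⟨pg, pg', t0, t1, D0, a0, b0, hb, ha, l2, ua, ua', ub, ub', H1, H2, H3, H4⟩ := h
  have bp : 0 < b := by linarith
  have ap : 0 < a' := by linarith
  have ε0 : 0 < 1 - t := by linarith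
  obtain ⟨k, hk⟩ : ∃ k, k = (1 - t) / t := ⟨_, rfl⟩
  have k0 : 0 < k := by rw [hk]; positivity
  have hkt : k * t = 1 - t := by rw [hk]; field_simp
  have e4 : g (k * a') (1 - t) = k := by
    rw [← hkt, pg.hom k a' _ k0.le, ua', mul_one]
  have hpa : k * a' ≤ a := by
    have : (k * a') * t ≤ a * t := by
      have e : (k * a') * t = a' * (k * t) := by ring
      rw [e, hkt]; nlinarith
    exact le_of_mul_le_mul_right this t0
  have c1 := pg.conv (1 - t) (p := k * a') (q := a) (r := r) hpa har.le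
  rw [e4] at c1
  have c2 : a ≤ t * g a (1 - t) + (1 - t) := by
    have u := pg.add (t * a) (t * (1 - t)) ((1 - t) * a) ((1 - t) * (-t))
    rw [pg.hom t _ _ t0.le, pg.hom (1 - t) _ _ ε0.le, ua] at u
    have e1 : t * a + (1 - t) * a = a := by ring
    have e2 : t * (1 - t) + (1 - t) * (-t) = 0 := by ring
    rw [e1, e2, pg.zero_right a0.le] at u
    linarith
  obtain ⟨G, hG⟩ : ∃ G, G = g r (1 - t) := ⟨_, rfl⟩
  obtain ⟨R, hR⟩ : ∃ R, R = g a (1 - t) := ⟨_, rfl⟩
  rw [← hG] at c1 hs
  rw [← hR] at c1 c2 hs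
  have s1 : (r - a) * (R - k) ≤ (a - k * a') * (G - R) := by nlinarith
  have s2 : D * ((a + a') * (R - k)) ≤ D * ((a - k * a') * b) := by
    have u1 := mul_le_mul_of_nonneg_left s1 b0.le
    have u2 : (a - k * a') * (b' * (G - R)) ≤ (a - k * a') * (D * b) :=
      mul_le_mul_of_nonneg_left (by linarith) (by linarith)
    have e : b' * ((r - a) * (R - k)) = D * ((a + a') * (R - k)) := by
      rw [← mul_assoc, mul_comm b', hr, mul_assoc]
    rw [e] at u1
    nlinarith
  have s3 := le_of_mul_le_mul_left s2 D0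
  have s4 : (a + a') * (t * R - (1 - t)) ≤ (t * a - (1 - t) * a') * b := by
    have u := mul_le_mul_of_nonneg_left s3 t0.le
    have e1 : t * ((a + a') * (R - k)) = (a + a') * (t * R - k * t) := by ring
    have e2 : t * ((a - k * a') * b) = (t * a - (k * t) * a') * b := by ring
    rw [e1, e2, hkt] at u
    exact u
  have s5 : (a + a') * (a - 2 * (1 - t)) ≤ (t * a - (1 - t) * a') * b := by
    have : (a + a') * (a - 2 * (1 - t)) ≤ (a + a') * (t * R - (1 - t)) :=
      mul_le_mul_of_nonneg_left (by linarith) (by linarith)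
    linarith
  have s6 : a * b' ≤ ((1 - t) * (a + a')) * (2 - b) := by
    have e : b' = a + a' - b := by linarith
    rw [e]; nlinarith
  have lp : 0 < (1 - t) * (a + a') := by positivity
  have s7 : b ≤ 1 := by
    have : ((1 - t) * (a + a')) * 1 ≤ ((1 - t) * (a + a')) * (2 - b) := by linarith
    have := le_of_mul_le_mul_left this lp
    linarith
  have hD : a' * b - a * b' = D * (a + a') := by rw [hb, ha]; ring
  have lp2 : 0 < D * (a + a') := by positivity
  rcases le_or_gt a (t * (a + a')) with h1 | h1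
  · have := jj h1
    linarith
  · have u1 : b' < a * b' := by linarith
    have u2 : a * b' ≤ 1 * b' := mul_le_mul_of_nonneg_right (by linarith) b0.le
    linarith

theorem false (h : Conf g g' t D a a' b b') : False := by
  have e : b' + b = a + a' := by have := h.ha; have := h.hb; linarith
  rcases le_or_gt a' (t * (a + a')) with h1 | h1
  · exact h.case1 h1
  rcases le_or_gt b (t * (a + a')) with h2 | h2
  · exact h.symm.case1 (by rw [e]; exact h2)
  have h3 : a < (1 - t) * (a + a') := by linarith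
  have h4 : b' < (1 - t) * (a + a') := by linarith
  have i1 := h.I1 h4.le
  have i2 := h.I2 h3.le
  have jj := h.JJ
  obtain ⟨pg, pg', t0, t1, D0, a0, b0, hb, ha, l2, ua, ua', ub, ub', H1, H2, H3, H4⟩ := h
  have lp : 0 < a + a' := by linarith
  rcases le_or_gt t (1 / 2) with ht | ht
  · have u1 : (a + a') * (a + a') ≤ 4 * ((1 - t) * (a + a')) := by nlinarith
    have u2 : a + a' < a + b := by
      by_contra hn
      push Not at hn
      have : (a + b) * (a + b) ≤ (a + a') * (a + a') :=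
        mul_le_mul hn hn (by linarith) lp.le
      have e2 : (a + b) * (a + b) = 4 * (a * b) + D * D := by rw [hb]; ring
      nlinarith
    have u3 : a + a' < a' + b' := by
      by_contra hn
      push Not at hn
      have : (a' + b') * (a' + b') ≤ (a + a') * (a + a') :=
        mul_le_mul hn hn (by linarith) lp.le
      have e2 : (a' + b') * (a' + b') = 4 * (b' * a') + D * D := by rw [ha]; ring
      nlinarith
    linarith
  · have u0 : (1 - t) * (a + a') < t * (a + a') := mul_lt_mul_of_pos_right (by linarith) lp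
    have := jj (by linarith) (by linarith)
    have u1 : 0 < a' - a := by linarith
    have u2 : 0 < b - b' := by linarith
    have := mul_pos u1 u2
    nlinarith

end Conf

end Vale.Agent.P084b
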