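import Mathlib
import Vale.Agent.P084b.Exit
import Vale.Agent.P084b.Darbo
import Vale.Agent.P084b.Planar

/-! Alignment of an extremal configuration and the resulting contradiction. -/

open Set Metric

namespace Vale.Agent.P084b

variable {X Y : Type*} [NormedAddCommGroup X] [NormedSpace ℝ X]
    [NormedAddCommGroup Y] [NormedSpace ℝ Y] {F : X → Y} {G : Y → X} {D : ℝ}

/-- One step of the chord map through `z` and `F z`. -/
structure Step (F : X → Y) (z v : X) (a : ℝ) (d : Y) (b b' : ℝ) (p : X) (a' : ℝ) : Prop where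
  hv : ‖v‖ = 1
  a0 : 0 < a
  ua : ‖z - a • v‖ = 1
  hd : ‖d‖ = 1
  b0 : 0 < b
  eb : F (z - a • v) = F z + b • d
  b0' : 0 < b'
  ub' : ‖F z - b' • d‖ = 1
  hp : ‖p‖ = 1
  a0' : 0 < a'
  ea' : F (z + a' • p) = F z - b' • d

theorem exists_dir {E : Type*} [NormedAddCommGroup E] [NormedSpace ℝ E] {z u : E} (hz : ‖z‖ < 1)
    (hu : ‖u‖ = 1) : ∃ (b : ℝ) (d : E), 0 < b ∧ ‖d‖ = 1 ∧ u = z + b • d := by
  have h : 0 < ‖u - z‖ := by
    have := norm_sub_norm_le u z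
    linarith
  refine ⟨‖u - z‖, ‖u - z‖⁻¹ • (u - z), h, ?_, ?_⟩
  · rw [norm_smul, norm_inv, norm_norm, inv_mul_cancel₀ h.ne']
  · rw [smul_smul, mul_inv_cancel₀ h.ne', one_smul]; abel

theorem exists_step (h : Rad F G D) {z : X} (hz : ‖z‖ < 1) {v : X} (hv : ‖v‖ = 1) :
    ∃ a d b b' p a', Step F z v a d b b' p a' := by
  obtain ⟨a, a0, ua⟩ := exists_exit hz hv
  have hw : ‖F z‖ < 1 := by rwa [h.norm]
  obtain ⟨b, d, b0, hd, eb⟩ := exists_dir hw ((h.norm _).trans ua)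
  obtain ⟨b', b0', ub'⟩ := exists_exit hw hd
  obtain ⟨a', p, a0', hp, ea'⟩ := exists_dir hz ((h.symm.norm _).trans ub')
  exact ⟨a, d, b, b', p, a', hv, a0, ua, hd, b0, eb, b0', ub', hp, a0', by rw [← ea', h.right]⟩

namespace Step

variable {z v p : X} {a b b' a' : ℝ} {d : Y}

theorem ua' (s : Step F z v a d b b' p a') (h : Rad F G D) : ‖z + a' • p‖ = 1 := by
  rw [← h.norm, s.ea', s.ub']

theorem ub (s : Step F z v a d b b' p a') (h : Rad F G D) : ‖F z + b • d‖ = 1 := by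
  rw [← s.eb, h.norm, s.ua]

theorem nb (s : Step F z v a d b b' p a') : ‖F (z - a • v) - F z‖ = b := by
  rw [s.eb, add_sub_cancel_left, norm_smul, s.hd, mul_one, Real.norm_of_nonneg s.b0.le]

theorem na (s : Step F z v a d b b' p a') : ‖z - a • v - z‖ = a := by
  rw [sub_sub_cancel_left, norm_neg, norm_smul, s.hv, mul_one, Real.norm_of_nonneg s.a0.le]

theorem nb' (s : Step F z v a d b b' p a') : ‖F (z + a' • p) - F z‖ = b' := by
  rw [s.ea', sub_sub_cancel_left, norm_neg, norm_smul, s.hd, mul_one,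
    Real.norm_of_nonneg s.b0'.le]

theorem na' (s : Step F z v a d b b' p a') : ‖z + a' • p - z‖ = a' := by
  rw [add_sub_cancel_left, norm_smul, s.hp, mul_one, Real.norm_of_nonneg s.a0'.le]

theorem chord (s : Step F z v a d b b' p a') (h : Rad F G D) : ‖a • v + a' • p‖ = b + b' := by
  have h1 := h.iso (s.ua' h) s.ua
  have e1 : z + a' • p - (z - a • v) = a • v + a' • p := by abel
  have e2 : F z - b' • d - (F z + b • d) = -((b + b') • d) := by module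
  rw [s.ea', s.eb, e1, e2, norm_neg, norm_smul, s.hd, mul_one,
    Real.norm_of_nonneg (add_pos s.b0 s.b0').le] at h1
  exact h1.symm

theorem next (s : Step F z v a d b b' p a') (h : Rad F G D) (hz : ‖z‖ < 1) (hb : b = a + D) :
    a' = b' + D ∧ ‖v + p‖ = 2 := by
  have h1 := s.chord h
  have h2 := norm_add_le (a • v) (a' • p)
  rw [norm_smul, norm_smul, s.hv, s.hp, Real.norm_of_nonneg s.a0.le,
    Real.norm_of_nonneg s.a0'.le] at h2
  have h3 := h.bound (s.ua' h) hz.le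
  rw [s.nb', s.na'] at h3
  have h4 := (abs_le.1 h3).1
  refine ⟨by linarith, two_of_aligned s.hv s.hp s.a0 s.a0' (by linarith)⟩

theorem prev (s : Step F z v a d b b' p a') (h : Rad F G D) (hz : ‖z‖ < 1) {v₀ p₀ : X}
    {a₀ b₀ b₀' a₀' : ℝ} {d₀ : Y} (s₀ : Step F z v₀ a₀ d₀ b₀ b₀' p₀ a₀') (h₀ : a₀' = b₀' + D)
    (h2 : ‖v + p₀‖ = 2) : b = a + D := by
  have h1 := aligned_of_two s.hv s₀.hp s.a0.le s₀.a0'.le h2
  have h3 := h.iso (s₀.ua' h) s.ua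
  have e1 : z + a₀' • p₀ - (z - a • v) = a • v + a₀' • p₀ := by abel
  rw [e1, h1] at h3
  have h4 := norm_sub_le (F (z + a₀' • p₀) - F z) (F (z - a • v) - F z)
  rw [sub_sub_sub_cancel_right, h3, s₀.nb', s.nb] at h4
  have h5 := h.bound s.ua hz.le
  rw [s.nb, s.na] at h5
  have h6 := (abs_le.1 h5).2
  linarith

theorem est {v₁ v₂ p₁ p₂ : X} {a₁ b₁ b₁' a₁' a₂ b₂ b₂' a₂' : ℝ} {d₁ d₂ : Y}
    (s₁ : Step F z v₁ a₁ d₁ b₁ b₁' p₁ a₁') (s₂ : Step F z v₂ a₂ d₂ b₂ b₂' p₂ a₂')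
    (h : Rad F G D) (hz : ‖z‖ < 1) (hD : 0 < D) (e₁ : b₁ = a₁ + D) (e₂ : b₂ = a₂ + D) :
    (1 - ‖z‖) * ‖d₁ - d₂‖ ≤ 2 * ‖v₁ - v₂‖ + 2 * |a₁ - a₂| ∧
    ‖p₁ - p₂‖ ≤ (1 - D / 2) * ‖v₁ - v₂‖ + 2 / (1 - ‖z‖) * (|a₁ - a₂| + |b₁' - b₂'|) := by
  have f₁ := (s₁.next h hz e₁).1
  have f₂ := (s₂.next h hz e₂).1
  have hw : ‖F z‖ < 1 := by rwa [h.norm]
  have i1 := h.iso s₁.ua s₂.ua
  have i2 := h.iso (s₁.ua' h) (s₂.ua' h)
  have x1 : z - a₁ • v₁ - (z - a₂ • v₂) = -(a₁ • v₁ - a₂ • v₂) := by abel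
  have x2 : F z + b₁ • d₁ - (F z + b₂ • d₂) = b₁ • d₁ - b₂ • d₂ := by abel
  have x3 : z + a₁' • p₁ - (z + a₂' • p₂) = a₁' • p₁ - a₂' • p₂ := by abel
  have x4 : F z - b₁' • d₁ - (F z - b₂' • d₂) = -(b₁' • d₁ - b₂' • d₂) := by abel
  rw [s₁.eb, s₂.eb, x1, x2, norm_neg] at i1
  rw [s₁.ea', s₂.ea', x3, x4, norm_neg] at i2
  have k1 := (abs_le.1 (scale_est v₁ s₂.hv a₂ s₁.a0.le)).2
  have k2 := (abs_le.1 (scale_est d₁ s₂.hd b₂ s₁.b0.le)).1
  have k3 := (abs_le.1 (scale_est d₁ s₂.hd b₂' s₁.b0'.le)).2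
  have k4 := (abs_le.1 (scale_est p₁ s₂.hp a₂' s₁.a0'.le)).1
  have y1 : b₁ - b₂ = a₁ - a₂ := by linarith
  have y2 : a₁' - a₂' = b₁' - b₂' := by linarith
  rw [y1] at k2
  rw [y2] at k4
  have m1 : b₁ * ‖d₁ - d₂‖ ≤ a₁ * ‖v₁ - v₂‖ + 2 * |a₁ - a₂| := by linarith
  have m2 : a₁' * ‖p₁ - p₂‖ ≤ b₁' * ‖d₁ - d₂‖ + 2 * |b₁' - b₂'| := by linarith
  have ub : ‖F z - b₁ • (-d₁)‖ = 1 := by rw [smul_neg, sub_neg_eq_add]; exact s₁.ub h
  have ua : ‖z - a₁' • (-p₁)‖ = 1 := by rw [smul_neg, sub_neg_eq_add]; exact s₁.ua' h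
  have g1 := exit_ge (by rw [norm_neg, s₁.hd]) s₁.b0.le ub
  have g2 := exit_le hw (by rw [norm_neg, s₁.hd]) s₁.b0.le ub
  have g3 := exit_ge (by rw [norm_neg, s₁.hp]) s₁.a0'.le ua
  have g4 := exit_le hz s₁.hv s₁.a0.le s₁.ua
  rw [h.norm] at g1
  have a0 := s₁.a0
  have b0 := s₁.b0
  have a0' := s₁.a0'
  have b0' := s₁.b0'
  have ε0 : 0 < 1 - ‖z‖ := by linarith
  obtain ⟨ε, hε⟩ : ∃ ε, ε = 1 - ‖z‖ := ⟨_, rfl⟩
  rw [← hε] at g1 g3 ε0 ⊢
  have nd := norm_nonneg (d₁ - d₂)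
  have nv := norm_nonneg (v₁ - v₂)
  have np := norm_nonneg (p₁ - p₂)
  have nA := abs_nonneg (a₁ - a₂)
  have nB := abs_nonneg (b₁' - b₂')
  obtain ⟨L, hL⟩ : ∃ L, L = 2 / ε := ⟨_, rfl⟩
  have hL0 : 0 < L := by rw [hL]; positivity
  have hLε : L * ε = 2 := by rw [hL]; field_simp
  rw [← hL]
  have hLb : 2 ≤ L * b₁ := by rw [← hLε]; exact mul_le_mul_of_nonneg_left g1 hL0.le
  have hLa : 2 ≤ L * a₁' := by rw [← hLε]; exact mul_le_mul_of_nonneg_left g3 hL0.le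
  constructor
  · have := mul_le_mul_of_nonneg_right g1 nd
    have := mul_le_mul_of_nonneg_right g4 nv
    linarith
  have q1 : ‖d₁ - d₂‖ ≤ (1 - D / 2) * ‖v₁ - v₂‖ + L * |a₁ - a₂| := by
    have u1 : a₁ ≤ b₁ * (1 - D / 2) := by nlinarith
    have u2 := mul_le_mul_of_nonneg_right u1 nv
    have u3 := mul_le_mul_of_nonneg_right hLb nA
    have : b₁ * ‖d₁ - d₂‖ ≤ b₁ * ((1 - D / 2) * ‖v₁ - v₂‖ + L * |a₁ - a₂|) := by linarith
    exact le_of_mul_le_mul_left this b0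
  have q2 : ‖p₁ - p₂‖ ≤ ‖d₁ - d₂‖ + L * |b₁' - b₂'| := by
    have u2 := mul_le_mul_of_nonneg_right (by linarith : b₁' ≤ a₁') nd
    have u3 := mul_le_mul_of_nonneg_right hLa nB
    have : a₁' * ‖p₁ - p₂‖ ≤ a₁' * (‖d₁ - d₂‖ + L * |b₁' - b₂'|) := by linarith
    exact le_of_mul_le_mul_left this a0'
  linarith

theorem lip {v₁ v₂ p₁ p₂ : X} {a₁ b₁ b₁' a₁' a₂ b₂ b₂' a₂' : ℝ} {d₁ d₂ : Y}
    (s₁ : Step F z v₁ a₁ d₁ b₁ b₁' p₁ a₁') (s₂ : Step F z v₂ a₂ d₂ b₂ b₂' p₂ a₂')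
    (h : Rad F G D) (hz : ‖z‖ < 1) (hD : 0 < D) (e₁ : b₁ = a₁ + D) (e₂ : b₂ = a₂ + D) :
    ‖p₁ - p₂‖ ≤ (1 + (1 - ‖z‖)⁻¹ * (2 * ((1 - ‖z‖)⁻¹ * 4 + (1 - ‖z‖)⁻¹ * (4 * ((1 - ‖z‖)⁻¹ *
      (2 + 2 * ((1 - ‖z‖)⁻¹ * 4))))))) * ‖v₁ - v₂‖ := by
  obtain ⟨h1, h2⟩ := est s₁ s₂ h hz hD e₁ e₂
  have hw : ‖F z‖ < 1 := by rwa [h.norm]
  have h3 := exit_lip hz s₁.hv s₂.hv s₁.a0 s₂.a0 s₁.ua s₂.ua
  have h4 := exit_lip hw s₁.hd s₂.hd s₁.b0' s₂.b0' s₁.ub' s₂.ub'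
  rw [h.norm] at h4
  have ε0 : 0 < 1 - ‖z‖ := by linarith
  rw [div_eq_mul_inv 2 (1 - ‖z‖)] at h2
  rw [← le_inv_mul_iff₀ ε0] at h1 h3 h4
  have k0 : 0 < (1 - ‖z‖)⁻¹ := inv_pos.2 ε0
  obtain ⟨k, hk⟩ : ∃ k, k = (1 - ‖z‖)⁻¹ := ⟨_, rfl⟩
  rw [← hk] at h1 h2 h3 h4 k0 ⊢
  have nv := norm_nonneg (v₁ - v₂)
  have u1 : ‖d₁ - d₂‖ ≤ k * (2 * ‖v₁ - v₂‖ + 2 * (k * (4 * ‖v₁ - v₂‖))) :=
    h1.trans (mul_le_mul_of_nonneg_left (by linarith) k0.le)
  have u2 : |b₁' - b₂'| ≤ k * (4 * (k * (2 * ‖v₁ - v₂‖ + 2 * (k * (4 * ‖v₁ - v₂‖))))) :=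
    h4.trans (mul_le_mul_of_nonneg_left (by linarith) k0.le)
  have u3 := mul_le_mul_of_nonneg_left (add_le_add h3 u2) (by positivity : 0 ≤ 2 * k)
  have u4 : 0 ≤ D / 2 * ‖v₁ - v₂‖ := by positivity
  linarith

theorem not_fixed (s : Step F z v a d b b' v a') (h : Rad F G D) (hz : ‖z‖ < 1) (hz0 : z ≠ 0)
    (hD : 0 < D) (hb : b = a + D) : False := by
  have ha := (s.next h hz hb).1
  obtain ⟨t, ht⟩ : ∃ t, t = ‖z‖ := ⟨_, rfl⟩
  have t0 : 0 < t := by rw [ht]; exact norm_pos_iff.2 hz0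
  obtain ⟨y, hy⟩ : ∃ y, y = t⁻¹ • z := ⟨_, rfl⟩
  have y1 : ‖y‖ = 1 := by
    rw [hy, norm_smul, norm_inv, Real.norm_of_nonneg t0.le, ← ht, inv_mul_cancel₀ t0.ne']
  have hzy : z = t • y := by rw [hy, smul_smul, mul_inv_cancel₀ t0.ne', one_smul]
  have hw : F z = t • F y := by rw [hzy, h.smul t y t0.le]
  have n1 : ∀ τ : ℝ, ‖a • v + (τ - t) • y‖ = ‖z - a • v - τ • y‖ := fun τ => by
    rw [← norm_neg, hzy]; congr 1; module
  have n2 : ∀ τ : ℝ, ‖a' • v + (t - τ) • y‖ = ‖z + a' • v - τ • y‖ := fun τ => by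
    rw [hzy]; congr 1; module
  have n3 : ∀ τ : ℝ, 0 ≤ τ →
      ‖b • (-d) + (τ - t) • F y‖ = ‖F (z - a • v) - F (τ • y)‖ := fun τ hτ => by
    rw [← norm_neg, s.eb, hw, h.smul τ y hτ]; congr 1; module
  have n4 : ∀ τ : ℝ, 0 ≤ τ →
      ‖b' • (-d) + (t - τ) • F y‖ = ‖F (z + a' • v) - F (τ • y)‖ := fun τ hτ => by
    rw [s.ea', hw, h.smul τ y hτ]; congr 1; module
  have ny : ∀ τ : ℝ, 0 ≤ τ → τ ≤ 1 → ‖τ • y‖ ≤ 1 := fun τ h0 h1 => by
    rwa [norm_smul, y1, mul_one, Real.norm_of_nonneg h0]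
  have F0 : F 0 = 0 := by rw [← norm_eq_zero, h.norm, norm_zero]
  refine Conf.false (g := fun ξ η => ‖ξ • v + η • y‖) (g' := fun ξ η => ‖ξ • (-d) + η • F y‖)
    (t := t) (D := D) (a := a) (a' := a') (b := b) (b' := b')
    ⟨⟨?_, ?_, ?_, ?_, ?_⟩, ⟨?_, ?_, ?_, ?_, ?_⟩, t0, by rwa [ht], hD, s.a0, s.b0', hb, ha, ?_,
      ?_, ?_, ?_, ?_, ?_, ?_, ?_, ?_⟩
  · intro c ξ η hc
    rw [mul_smul, mul_smul, ← smul_add, norm_smul, Real.norm_of_nonneg hc]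
  · intro ξ η ξ' η'
    refine le_trans (le_of_eq ?_) (norm_add_le _ _)
    congr 1; module
  · intro ξ η
    rw [← norm_neg]; congr 1; module
  · simpa using s.hv
  · simpa using y1
  · intro c ξ η hc
    rw [mul_smul, mul_smul, ← smul_add, norm_smul, Real.norm_of_nonneg hc]
  · intro ξ η ξ' η'
    refine le_trans (le_of_eq ?_) (norm_add_le _ _)
    congr 1; module
  · intro ξ η
    rw [← norm_neg]; congr 1; module
  · simpa using s.hd
  · simpa [h.norm] using y1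
  · have h1 := norm_sub_le (z + a' • v) (z - a • v)
    have e : z + a' • v - (z - a • v) = (a + a') • v := by module
    rw [e, s.ua, s.ua' h, norm_smul, s.hv, mul_one,
      Real.norm_of_nonneg (add_pos s.a0 s.a0').le] at h1
    linarith
  · have := n1 0
    rwa [zero_smul, sub_zero, zero_sub, s.ua] at this
  · have := n2 0
    rwa [zero_smul, sub_zero, sub_zero, s.ua' h] at this
  · have := n3 0 le_rfl
    rwa [zero_smul, F0, sub_zero, zero_sub, h.norm, s.ua] at this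
  · have := n4 0 le_rfl
    rwa [zero_smul, F0, sub_zero, sub_zero, h.norm, s.ua' h] at this
  · intro τ h0 h1
    have := (abs_le.1 (h.bound s.ua (ny τ h0 h1))).2
    rw [← n1, ← n3 τ h0] at this
    linarith
  · intro τ h0 h1
    have := (abs_le.1 (h.bound (s.ua' h) (ny τ h0 h1))).1
    rw [← n2, ← n4 τ h0] at this
    linarith
  · have := h.iso s.ua (q := (1 : ℝ) • y) (by rwa [one_smul])
    rwa [← n1, ← n3 1 zero_le_one] at this
  · have := h.iso (s.ua' h) (q := (1 : ℝ) • y) (by rwa [one_smul])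
    rw [← n2, ← n4 1 zero_le_one] at this
    rw [neg_sub]
    exact this.symm

end Step

theorem exists_face {v₀ : X} (hv₀ : ‖v₀‖ = 1) :
    ∃ C : Set X, v₀ ∈ C ∧ Convex ℝ C ∧ IsClosed C ∧ (∀ c ∈ C, ‖c‖ = 1) ∧
      ∀ p, ‖p‖ = 1 → (∀ c ∈ C, ‖c + p‖ = 2) → p ∈ C := by
  obtain ⟨C, hC0, hC⟩ := zorn_subset_nonempty {C : Set X | Convex ℝ C ∧ C ⊆ sphere 0 1}
    (fun c hc hch _ => ⟨⋃₀ c, ⟨hch.directedOn.convex_sUnion fun A hA => (hc hA).1,
      sUnion_subset fun A hA => (hc hA).2⟩, fun s hs => subset_sUnion_of_mem hs⟩) {v₀}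
    ⟨convex_singleton _, by simpa using hv₀⟩
  have hv : v₀ ∈ C := hC0 rfl
  have h1 : ∀ c ∈ C, ‖c‖ = 1 := fun c hc => by simpa using hC.prop.2 hc
  refine ⟨C, hv, hC.prop.1, ?_, h1, ?_⟩
  · refine closure_subset_iff_isClosed.1 (hC.le_of_ge (y := closure C) ⟨hC.prop.1.closure, ?_⟩
      subset_closure)
    exact closure_minimal hC.prop.2 isClosed_sphere
  · intro p hp h2
    have h3 : convexJoin ℝ C {p} ⊆ C := by
      refine hC.le_of_ge (y := convexJoin ℝ C {p}) ⟨hC.prop.1.convexJoin (convex_singleton _), ?_⟩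
        (subset_convexJoin_left (singleton_nonempty _))
      intro x hx
      obtain ⟨c, hc, q, hq, α, β, hα, hβ, hαβ, rfl⟩ := mem_convexJoin.1 hx
      rw [mem_singleton_iff.1 hq, mem_sphere_zero_iff_norm,
        aligned_of_two (h1 c hc) hp hα hβ (h2 c hc), hαβ]
    exact h3 (subset_convexJoin_right ⟨v₀, hv⟩ rfl)

theorem not_attained [CompleteSpace X] (h : Rad F G D) (hD : 0 < D) {x z : X} (hx : ‖x‖ = 1)
    (hz1 : ‖z‖ ≤ 1) (hxz : ‖F x - F z‖ = ‖x - z‖ + D) : False := by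
  have hz : ‖z‖ < 1 := by
    refine lt_of_le_of_ne hz1 fun h1 => ?_
    have := h.iso hx h1
    linarith
  have hz0 : z ≠ 0 := by
    rintro rfl
    have F0 : F 0 = 0 := by rw [← norm_eq_zero, h.norm, norm_zero]
    rw [F0, sub_zero, sub_zero, h.norm] at hxz
    linarith
  have H : ∀ v : X, ∃ a d b b' p a', ‖v‖ = 1 → Step F z v a d b b' p a' := fun v => by
    by_cases hv : ‖v‖ = 1
    · obtain ⟨a, d, b, b', p, a', s⟩ := exists_step h hz hv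
      exact ⟨a, d, b, b', p, a', fun _ => s⟩
    · exact ⟨0, 0, 0, 0, 0, 0, fun h => absurd h hv⟩
  choose α δ β β' T α' S using H
  -- the starting direction
  obtain ⟨a₁, w₁, a0, hw₁, hxw⟩ := exists_dir hz hx
  have hv₁ : ‖-w₁‖ = 1 := by rw [norm_neg, hw₁]
  have s₁ := S _ hv₁
  have e₁ : α (-w₁) = a₁ := by
    have h1 := exit_lip hz hv₁ hv₁ s₁.a0 a0 s₁.ua (by rw [smul_neg, sub_neg_eq_add, ← hxw, hx])
    rw [sub_self, norm_zero, mul_zero] at h1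
    have h2 : |α (-w₁) - a₁| ≤ 0 := by
      by_contra hn
      push Not at hn
      have := mul_pos (by linarith : 0 < 1 - ‖z‖) hn
      linarith
    rwa [abs_nonpos_iff, sub_eq_zero] at h2
  have f₁ : β (-w₁) = α (-w₁) + D := by
    have h1 := s₁.nb
    have h2 := s₁.na
    have e : z - α (-w₁) • -w₁ = x := by rw [e₁, smul_neg, sub_neg_eq_add, ← hxw]
    rw [e] at h1 h2
    linarith
  have g₁ := (s₁.next h hz f₁).1
  obtain ⟨C, hv₀, hCv, hCc, hC1, hCm⟩ := exists_face s₁.hp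
  have two : ∀ c ∈ C, ∀ c' ∈ C, ‖c + c'‖ = 2 := by
    intro c hc c' hc'
    refine two_of_aligned (hC1 c hc) (hC1 c' hc') (α := 1 / 2) (β := 1 / 2) (by norm_num)
      (by norm_num) ?_
    rw [hC1 _ (hCv hc hc' (by norm_num) (by norm_num) (by norm_num))]
    norm_num
  have hA : ∀ c ∈ C, β c = α c + D := fun c hc =>
    (S c (hC1 c hc)).prev h hz s₁ g₁ (two c hc _ hv₀)
  obtain ⟨M, hM0, hM⟩ : ∃ M : ℝ, 0 ≤ M ∧ ∀ c ∈ C, ∀ c' ∈ C, ‖T c - T c'‖ ≤ M * ‖c - c'‖ := by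
    refine ⟨_, ?_, fun c hc c' hc' =>
      (S c (hC1 c hc)).lip (S c' (hC1 c' hc')) h hz hD (hA c hc) (hA c' hc')⟩
    have : 0 < 1 - ‖z‖ := by linarith
    positivity
  have hTC : MapsTo T C C := by
    intro v hv
    have hp := (S v (hC1 v hv)).hp
    refine hCm _ hp fun c hc => ?_
    refine le_antisymm ((norm_add_le _ _).trans (by rw [hp, hC1 c hc]; norm_num)) ?_
    refine le_of_forall_pos_le_add fun θ hθ => ?_
    obtain ⟨η, η0, η1, hη⟩ : ∃ η : ℝ, 0 < η ∧ η ≤ 1 ∧ M * (η * 2) ≤ θ := by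
      refine ⟨min 1 (θ / (2 * M + 1)), by positivity, min_le_left _ _, ?_⟩
      have h1 : min 1 (θ / (2 * M + 1)) ≤ θ / (2 * M + 1) := min_le_right _ _
      rw [le_div_iff₀ (by positivity)] at h1
      have h2 : 0 < min 1 (θ / (2 * M + 1)) := by positivity
      linarith
    have hvη : (1 - η) • v + η • c ∈ C := hCv hv hc (by linarith) η0.le (by ring)
    obtain ⟨u, hu⟩ : ∃ u, u = (1 - η) • v + η • c := ⟨_, rfl⟩
    rw [← hu] at hvη
    have su := S u (hC1 u hvη)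
    have k1 := (su.next h hz (hA u hvη)).2
    have k2 : ‖c + T u‖ = 2 := by
      refine two_of_aligned (hC1 c hc) su.hp η0 zero_lt_one ?_
      have e : u + T u = (1 - η) • v + (η • c + (1 : ℝ) • T u) := by rw [one_smul, ← add_assoc, ← hu]
      have k3 := norm_add_le ((1 - η) • v) (η • c + (1 : ℝ) • T u)
      rw [← e, k1, norm_smul, hC1 v hv, Real.norm_of_nonneg (by linarith)] at k3
      linarith
    have k4 := hM u hvη v hv
    have k5 : ‖u - v‖ ≤ η * 2 := by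
      have e : u - v = η • (c - v) := by rw [hu]; module
      rw [e, norm_smul, Real.norm_of_nonneg η0.le]
      refine mul_le_mul_of_nonneg_left ((norm_sub_le _ _).trans ?_) η0.le
      rw [hC1 c hc, hC1 v hv]; norm_num
    have k6 := mul_le_mul_of_nonneg_left k5 hM0
    have k7 := norm_add_le (c + T v) (T u - T v)
    rw [add_add_sub_cancel, k2] at k7
    linarith
  have hT : ContinuousOn T C := by
    refine (LipschitzOnWith.of_dist_le_mul (K := ⟨M, hM0⟩) fun c hc c' hc' => ?_).continuousOn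
    rw [dist_eq_norm, dist_eq_norm]
    exact hM c hc c' hc'
  have hw : ‖F z‖ < 1 := by rwa [h.norm]
  have hD2 : D ≤ 2 := by
    have h1 := (abs_le.1 (h.near x z)).2
    rw [hx, abs_of_nonneg (by linarith)] at h1
    have := norm_nonneg z
    linarith
  obtain ⟨v, hv, hTv⟩ := darbo hCc hCv (fun c hc => (hC1 c hc).le) hv₀ hT hTC
    (κ := 1 - D / 2) (L := 2 / (1 - ‖z‖)) (by linarith) (by linarith)
    (div_nonneg zero_le_two (by linarith)) α β'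
    (fun c hc => ⟨(S c (hC1 c hc)).a0.le,
      exit_le hz (hC1 c hc) (S c (hC1 c hc)).a0.le (S c (hC1 c hc)).ua⟩)
    (fun c hc => ⟨(S c (hC1 c hc)).b0'.le,
      exit_le hw (S c (hC1 c hc)).hd (S c (hC1 c hc)).b0'.le (S c (hC1 c hc)).ub'⟩)
    (fun c hc c' hc' =>
      ((S c (hC1 c hc)).est (S c' (hC1 c' hc')) h hz hD (hA c hc) (hA c' hc')).2)
  have s := S v (hC1 v hv)
  rw [hTv] at s
  exact s.not_fixed h hz hz0 hD (hA v hv)

theorem not_attained' [CompleteSpace X] [CompleteSpace Y] (h : Rad F G D) (hD : 0 < D) {x z : X}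
    (hx : ‖x‖ ≤ 1) (hz : ‖z‖ ≤ 1) (hxz : |‖F x - F z‖ - ‖x - z‖| = D) : False := by
  have key : ∀ x z : X, ‖x‖ = 1 → ‖z‖ ≤ 1 → |‖F x - F z‖ - ‖x - z‖| = D → False := by
    intro x z hx hz hxz
    rcases abs_eq hD.le |>.1 hxz with h1 | h1
    · exact not_attained h hD hx hz (by linarith)
    · refine not_attained h.symm hD (x := F x) (z := F z) (by rwa [h.norm]) (by rwa [h.norm]) ?_
      rw [h.left, h.left]; linarith
  have h1 := h.defect x z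
  rw [hxz] at h1
  have h2 : 1 ≤ max ‖x‖ ‖z‖ := by
    have : D * 1 ≤ D * max ‖x‖ ‖z‖ := by linarith
    exact le_of_mul_le_mul_left this hD
  rcases le_max_iff.1 h2 with h3 | h3
  · exact key x z (le_antisymm hx h3) hz hxz
  · refine key z x (le_antisymm hz h3) hx ?_
    rwa [norm_sub_rev, norm_sub_rev z]

end Vale.Agent.P084b
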