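import Mathlib
import Vale.Agent.P084b.Exit

/-! Ultrapowers and completions preserve the radial structure. -/

open Set Metric Filter Topology UniformSpace

namespace Vale.Agent.P084b

section Completion

variable {X Y : Type*} [SeminormedAddCommGroup X] [NormedSpace ℝ X]
    [SeminormedAddCommGroup Y] [NormedSpace ℝ Y] {F : X → Y} {G : Y → X} {D : ℝ}

theorem Rad.uc (h : Rad F G D) : UniformContinuous F := by
  refine (LipschitzWith.of_dist_le_mul (K := 3) fun p q => ?_).uniformContinuous
  rw [dist_eq_norm, dist_eq_norm]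
  exact_mod_cast h.lip p q

theorem Rad.left_completion (h : Rad F G D) (x : Completion X) :
    Completion.map G (Completion.map F x) = x := by
  have c1 : Continuous (Completion.map F) := Completion.continuous_map
  have c2 : Continuous (Completion.map G) := Completion.continuous_map
  induction x using Completion.induction_on with
  | hp => exact isClosed_eq (by fun_prop) (by fun_prop)
  | ih a => rw [Completion.map_coe h.uc, Completion.map_coe h.symm.uc, h.left]

theorem Rad.completion (h : Rad F G D) : Rad (Completion.map F) (Completion.map G) D := by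
  have c1 : Continuous (Completion.map F) := Completion.continuous_map
  have c2 : Continuous fun x : Completion X × Completion X =>
      |‖Completion.map F x.1 - Completion.map F x.2‖ - ‖x.1 - x.2‖| :=
    (((c1.comp continuous_fst).sub (c1.comp continuous_snd)).norm.sub
      (continuous_fst.sub continuous_snd).norm).abs
  refine ⟨fun x => ?_, fun c x hc => ?_, h.left_completion, h.symm.left_completion,
    fun p q => ?_, fun p q => ?_⟩
  · induction x using Completion.induction_on with
    | hp => exact isClosed_eq c1.norm continuous_norm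
    | ih a => rw [Completion.map_coe h.uc, Completion.norm_coe, Completion.norm_coe, h.norm]
  · induction x using Completion.induction_on with
    | hp => exact isClosed_eq (c1.comp (continuous_const_smul c)) (c1.const_smul c)
    | ih a =>
      rw [← Completion.coe_smul, Completion.map_coe h.uc, Completion.map_coe h.uc, h.smul c a hc,
        Completion.coe_smul]
  · induction p, q using Completion.induction_on₂ with
    | hp => exact isClosed_le c2 (continuous_const.mul (continuous_fst.norm.sub continuous_snd.norm).abs)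
    | ih a b =>
      rw [Completion.map_coe h.uc, Completion.map_coe h.uc, ← Completion.coe_sub,
        ← Completion.coe_sub, Completion.norm_coe, Completion.norm_coe, Completion.norm_coe,
        Completion.norm_coe]
      exact h.near a b
  · induction p, q using Completion.induction_on₂ with
    | hp => exact isClosed_le c2 (continuous_const.mul (continuous_fst.norm.max continuous_snd.norm))
    | ih a b =>
      rw [Completion.map_coe h.uc, Completion.map_coe h.uc, ← Completion.coe_sub,
        ← Completion.coe_sub, Completion.norm_coe, Completion.norm_coe, Completion.norm_coe,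
        Completion.norm_coe]
      exact h.defect a b

end Completion

/-- A free ultrafilter on the natural numbers. -/
noncomputable def UF : Ultrafilter ℕ := Ultrafilter.of atTop

theorem UF_le : (UF : Filter ℕ) ≤ atTop := Ultrafilter.of_le _

/-- Limit along the ultrafilter. -/
noncomputable def ul (s : ℕ → ℝ) : ℝ := limUnder (UF : Filter ℕ) s

theorem tendsto_ul {s : ℕ → ℝ} {M : ℝ} (h : ∀ n, |s n| ≤ M) :
    Tendsto s (UF : Filter ℕ) (𝓝 (ul s)) := by
  obtain ⟨x, -, hx⟩ := (isCompact_Icc (a := -M) (b := M)).ultrafilter_le_nhds' (UF.map s)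
    (Ultrafilter.mem_map.2 (Filter.univ_mem' fun n => abs_le.1 (h n)))
  exact tendsto_nhds_limUnder ⟨x, hx⟩

section UP

/-- Bounded sequences. -/
def BSeq (X : Type*) [SeminormedAddCommGroup X] [NormedSpace ℝ X] : Submodule ℝ (ℕ → X) where
  carrier := {s | ∃ M, ∀ n, ‖s n‖ ≤ M}
  add_mem' := by
    rintro a b ⟨M, hM⟩ ⟨N, hN⟩
    exact ⟨M + N, fun n => (norm_add_le _ _).trans (add_le_add (hM n) (hN n))⟩
  zero_mem' := ⟨0, fun n => by simp⟩
  smul_mem' := by
    rintro c a ⟨M, hM⟩
    refine ⟨‖c‖ * M, fun n => ?_⟩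
    rw [Pi.smul_apply, norm_smul]
    exact mul_le_mul_of_nonneg_left (hM n) (norm_nonneg _)

/-- Bounded sequences, to be equipped with the ultralimit seminorm. -/
def UP (X : Type*) [SeminormedAddCommGroup X] [NormedSpace ℝ X] : Type _ := BSeq X

variable {X Y : Type*} [SeminormedAddCommGroup X] [NormedSpace ℝ X]
    [SeminormedAddCommGroup Y] [NormedSpace ℝ Y] {F : X → Y} {G : Y → X} {D : ℝ}

instance : AddCommGroup (UP X) := inferInstanceAs (AddCommGroup (BSeq X))

instance : Module ℝ (UP X) := inferInstanceAs (Module ℝ (BSeq X))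

/-- The underlying sequence. -/
def UP.seq (s : UP X) : ℕ → X := Subtype.val s

/-- Constructor. -/
def UP.mk (s : ℕ → X) (h : ∃ M, ∀ n, ‖s n‖ ≤ M) : UP X := (⟨s, h⟩ : BSeq X)

theorem UP.seq_mk (s : ℕ → X) (h : ∃ M, ∀ n, ‖s n‖ ≤ M) : (UP.mk s h).seq = s := rfl

theorem UP.ext {s t : UP X} (h : ∀ n, s.seq n = t.seq n) : s = t := Subtype.ext (funext h)

theorem UP.seq_add (s t : UP X) (n : ℕ) : (s + t).seq n = s.seq n + t.seq n := rfl

theorem UP.seq_sub (s t : UP X) (n : ℕ) : (s - t).seq n = s.seq n - t.seq n := rfl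

theorem UP.seq_smul (c : ℝ) (s : UP X) (n : ℕ) : (c • s).seq n = c • s.seq n := rfl

theorem UP.bdd (s : UP X) : ∃ M, ∀ n, ‖s.seq n‖ ≤ M := Subtype.property s

theorem UP.tendsto' (s : UP X) :
    Tendsto (fun n => ‖s.seq n‖) (UF : Filter ℕ) (𝓝 (ul fun n => ‖s.seq n‖)) := by
  obtain ⟨M, hM⟩ := s.bdd
  exact tendsto_ul (M := M) fun n => by rw [abs_norm]; exact hM n

/-- The ultralimit seminorm. -/
noncomputable def upSeminorm (X : Type*) [SeminormedAddCommGroup X] [NormedSpace ℝ X] :
    Seminorm ℝ (UP X) :=
  Seminorm.of (fun s => ul fun n => ‖s.seq n‖)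
    (fun s t => le_of_tendsto_of_tendsto' (s + t).tendsto' (s.tendsto'.add t.tendsto')
      fun n => norm_add_le _ _)
    (fun c s => tendsto_nhds_unique (c • s).tendsto' (by
      simpa only [UP.seq_smul, norm_smul] using s.tendsto'.const_mul ‖c‖))

noncomputable instance : SeminormedAddCommGroup (UP X) :=
  (upSeminorm X).toAddGroupSeminorm.toSeminormedAddCommGroup

noncomputable instance : NormedSpace ℝ (UP X) where
  norm_smul_le c s := ((upSeminorm X).smul' c s).le

theorem UP.tendsto (s : UP X) : Tendsto (fun n => ‖s.seq n‖) (UF : Filter ℕ) (𝓝 ‖s‖) :=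
  s.tendsto'

/-- The induced map on bounded sequences. -/
def upMap (F : X → Y) (h : ∀ x, ‖F x‖ = ‖x‖) (s : UP X) : UP Y :=
  UP.mk (fun n => F (s.seq n)) (by simpa only [h] using s.bdd)

theorem seq_upMap (h : ∀ x, ‖F x‖ = ‖x‖) (s : UP X) (n : ℕ) :
    (upMap F h s).seq n = F (s.seq n) := rfl

theorem tendsto_defect (h : ∀ x, ‖F x‖ = ‖x‖) (p q : UP X) :
    Tendsto (fun n => |‖F (p.seq n) - F (q.seq n)‖ - ‖p.seq n - q.seq n‖|) (UF : Filter ℕ)
      (𝓝 |‖upMap F h p - upMap F h q‖ - ‖p - q‖|) :=
  ((upMap F h p - upMap F h q).tendsto.sub (p - q).tendsto).abs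

theorem Rad.up (h : Rad F G D) : Rad (upMap F h.norm) (upMap G h.symm.norm) D where
  norm s := tendsto_nhds_unique (upMap F h.norm s).tendsto (by
    simpa only [seq_upMap, h.norm] using s.tendsto)
  smul c s hc := UP.ext fun n => h.smul c _ hc
  left s := UP.ext fun n => h.left _
  right s := UP.ext fun n => h.right _
  near p q := le_of_tendsto_of_tendsto' (tendsto_defect h.norm p q)
    ((p.tendsto.sub q.tendsto).abs.const_mul 2) fun n => h.near _ _
  defect p q := le_of_tendsto_of_tendsto' (tendsto_defect h.norm p q)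
    ((p.tendsto.max q.tendsto).const_mul D) fun n => h.defect _ _

theorem Rad.up_attained (h : Rad F G D) (p q : ℕ → X) (hp : ∀ n, ‖p n‖ ≤ 1) (hq : ∀ n, ‖q n‖ ≤ 1)
    (hD : Tendsto (fun n => |‖F (p n) - F (q n)‖ - ‖p n - q n‖|) atTop (𝓝 D)) :
    ∃ x z : UP X, ‖x‖ ≤ 1 ∧ ‖z‖ ≤ 1 ∧ |‖upMap F h.norm x - upMap F h.norm z‖ - ‖x - z‖| = D :=
  ⟨UP.mk p ⟨1, hp⟩, UP.mk q ⟨1, hq⟩, le_of_tendsto' (UP.tendsto _) hp,
    le_of_tendsto' (UP.tendsto _) hq,
    tendsto_nhds_unique (tendsto_defect h.norm _ _) (hD.mono_left UF_le)⟩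

end UP

end Vale.Agent.P084b
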