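import Mathlib
import Vale.Agent.P084b.Align
import Vale.Agent.P084b.Ultra

/-! Tingley's problem: surjective isometries of unit spheres extend linearly. -/

open Set Metric Filter Topology UniformSpace

namespace Vale.Agent.P084b

variable {X Y : Type*} [NormedAddCommGroup X] [NormedSpace ℝ X]
    [NormedAddCommGroup Y] [NormedSpace ℝ Y] {F : X → Y} {G : Y → X} {D : ℝ}

theorem Rad.isometric (h : Rad F G D) (p q : X) : ‖F p - F q‖ = ‖p - q‖ := by
  obtain ⟨S, hS⟩ : ∃ S : Set ℝ,
      S = {r | ∃ p q : X, ‖p‖ ≤ 1 ∧ ‖q‖ ≤ 1 ∧ |‖F p - F q‖ - ‖p - q‖| = r} := ⟨_, rfl⟩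
  have hne : S.Nonempty := by rw [hS]; exact ⟨_, 0, 0, by simp, by simp, rfl⟩
  have hb : BddAbove S := by
    rw [hS]
    refine ⟨2, ?_⟩
    rintro r ⟨p, q, hp, hq, rfl⟩
    have h1 := h.near p q
    have h2 : |‖p‖ - ‖q‖| ≤ 1 := by
      have := norm_nonneg p
      have := norm_nonneg q
      rw [abs_le]; constructor <;> linarith
    linarith
  have h' : Rad F G (sSup S) := by
    refine ⟨h.norm, h.smul, h.left, h.right, h.near, fun p q => ?_⟩
    obtain ⟨m, hm⟩ : ∃ m, m = max ‖p‖ ‖q‖ := ⟨_, rfl⟩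
    have hp : ‖p‖ ≤ m := by rw [hm]; exact le_max_left _ _
    have hq : ‖q‖ ≤ m := by rw [hm]; exact le_max_right _ _
    rw [← hm]
    rcases eq_or_lt_of_le ((norm_nonneg p).trans hp) with h0 | h0
    · have h1 := h.near p q
      rw [← h0] at hp hq ⊢
      rw [le_antisymm hp (norm_nonneg p), le_antisymm hq (norm_nonneg q)] at h1
      simpa using h1
    · have hs : ∀ x : X, ‖x‖ ≤ m → ‖m⁻¹ • x‖ ≤ 1 := fun x hx => by
        rw [norm_smul, Real.norm_of_nonneg (inv_pos.2 h0).le, inv_mul_le_iff₀ h0, mul_one]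
        exact hx
      have h1 : |‖F (m⁻¹ • p) - F (m⁻¹ • q)‖ - ‖m⁻¹ • p - m⁻¹ • q‖| ≤ sSup S :=
        le_csSup hb (by rw [hS]; exact ⟨_, _, hs p hp, hs q hq, rfl⟩)
      rw [h.smul _ _ (inv_pos.2 h0).le, h.smul _ _ (inv_pos.2 h0).le, ← smul_sub, ← smul_sub,
        norm_smul, norm_smul, ← mul_sub, abs_mul, abs_norm, Real.norm_of_nonneg (inv_pos.2 h0).le,
        inv_mul_le_iff₀ h0, mul_comm] at h1
      exact h1
  have hD : sSup S ≤ 0 := by
    by_contra hD
    push Not at hD
    obtain ⟨u, -, hu, huS⟩ := exists_seq_tendsto_sSup hne hb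
    rw [hS] at huS
    choose p q hp hq hpq using huS
    obtain ⟨x, z, hx, hz, hxz⟩ := h'.up_attained p q hp hq (by simpa only [hpq] using hu)
    refine not_attained' h'.up.completion hD (x := (x : Completion (UP X)))
      (z := (z : Completion (UP X))) (by rwa [Completion.norm_coe]) (by rwa [Completion.norm_coe]) ?_
    rw [Completion.map_coe h'.up.uc, Completion.map_coe h'.up.uc, ← Completion.coe_sub,
      ← Completion.coe_sub, Completion.norm_coe, Completion.norm_coe]
    exact hxz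
  have h1 := h'.defect p q
  have h2 : sSup S * max ‖p‖ ‖q‖ ≤ 0 :=
    mul_nonpos_of_nonpos_of_nonneg hD ((norm_nonneg p).trans (le_max_left _ _))
  have h3 := abs_nonpos_iff.1 (h1.trans h2)
  linarith

open Classical in
/-- The radial extension of a map between unit spheres. -/
noncomputable def radExt (f : sphere (0 : X) 1 → sphere (0 : Y) 1) (x : X) : Y :=
  if h : ‖x‖⁻¹ • x ∈ sphere (0 : X) 1 then ‖x‖ • (f ⟨_, h⟩ : Y) else 0

theorem norm_sph (u : sphere (0 : X) 1) : ‖(u : X)‖ = 1 := mem_sphere_zero_iff_norm.1 u.2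

theorem radExt_zero (f : sphere (0 : X) 1 → sphere (0 : Y) 1) : radExt f 0 = 0 := by
  rw [radExt, dif_neg (by simp)]

theorem radExt_smul (f : sphere (0 : X) 1 → sphere (0 : Y) 1) {c : ℝ} (hc : 0 ≤ c)
    (u : sphere (0 : X) 1) : radExt f (c • (u : X)) = c • (f u : Y) := by
  rcases eq_or_lt_of_le hc with rfl | h0
  · rw [zero_smul, zero_smul, radExt_zero]
  have h1 : ‖c • (u : X)‖ = c := by rw [norm_smul, norm_sph, mul_one, Real.norm_of_nonneg hc]
  have h2 : ‖c • (u : X)‖⁻¹ • c • (u : X) = u := by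
    rw [h1, smul_smul, inv_mul_cancel₀ h0.ne', one_smul]
  rw [radExt, dif_pos (by rw [h2]; exact u.2)]
  have h3 : ∀ h, (⟨‖c • (u : X)‖⁻¹ • c • (u : X), h⟩ : sphere (0 : X) 1) = u :=
    fun _ => Subtype.ext h2
  rw [h3, h1]

theorem polar (x : X) : x = 0 ∨ ∃ (c : ℝ) (u : sphere (0 : X) 1), 0 < c ∧ x = c • (u : X) := by
  by_cases hx : x = 0
  · exact Or.inl hx
  · have h := norm_pos_iff.2 hx
    refine Or.inr ⟨‖x‖, ⟨‖x‖⁻¹ • x, ?_⟩, h, ?_⟩
    · rw [mem_sphere_zero_iff_norm, norm_smul, norm_inv, norm_norm, inv_mul_cancel₀ h.ne']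
    · rw [smul_smul, mul_inv_cancel₀ h.ne', one_smul]

theorem radExt_norm (f : sphere (0 : X) 1 → sphere (0 : Y) 1) (x : X) : ‖radExt f x‖ = ‖x‖ := by
  rcases polar x with rfl | ⟨c, u, hc, rfl⟩
  · rw [radExt_zero, norm_zero, norm_zero]
  · rw [radExt_smul f hc.le, norm_smul, norm_smul, norm_sph, norm_sph]

theorem radExt_left {f : sphere (0 : X) 1 → sphere (0 : Y) 1}
    {g : sphere (0 : Y) 1 → sphere (0 : X) 1} (h : ∀ u, g (f u) = u) (x : X) :
    radExt g (radExt f x) = x := by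
  rcases polar x with rfl | ⟨c, u, hc, rfl⟩
  · rw [radExt_zero, radExt_zero]
  · rw [radExt_smul f hc.le, radExt_smul g hc.le, h]

theorem radExt_near {f : sphere (0 : X) 1 → sphere (0 : Y) 1} (hf : Isometry f) (p q : X) :
    |‖radExt f p - radExt f q‖ - ‖p - q‖| ≤ 2 * |‖p‖ - ‖q‖| := by
  rcases polar p with rfl | ⟨c, u, hc, rfl⟩
  · rw [radExt_zero, zero_sub, zero_sub, norm_neg, norm_neg, radExt_norm, sub_self, abs_zero]
    positivity
  rcases polar q with rfl | ⟨c', u', hc', rfl⟩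
  · rw [radExt_zero, sub_zero, sub_zero, radExt_norm, sub_self, abs_zero]
    positivity
  rw [radExt_smul f hc.le, radExt_smul f hc'.le, norm_smul, norm_smul, norm_sph, norm_sph,
    mul_one, mul_one, Real.norm_of_nonneg hc.le, Real.norm_of_nonneg hc'.le]
  have h1 := abs_le.1 (scale_est (u : X) (norm_sph u') c' hc.le)
  have h2 := abs_le.1 (scale_est (f u : Y) (norm_sph (f u')) c' hc.le)
  have h3 : ‖(f u : Y) - f u'‖ = ‖(u : X) - u'‖ := by
    rw [← dist_eq_norm, ← dist_eq_norm]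
    exact hf.dist_eq u u'
  rw [h3] at h2
  rw [abs_le]
  constructor <;> linarith [h1.1, h1.2, h2.1, h2.2]

theorem radExt_rad {f : sphere (0 : X) 1 → sphere (0 : Y) 1}
    {g : sphere (0 : Y) 1 → sphere (0 : X) 1} (hf : Isometry f) (h : ∀ u, g (f u) = u)
    (h' : ∀ u, f (g u) = u) : Rad (radExt f) (radExt g) 2 where
  norm := radExt_norm f
  smul c x hc := by
    rcases polar x with rfl | ⟨c', u, hc', rfl⟩
    · rw [smul_zero, radExt_zero, smul_zero]
    · rw [smul_smul, radExt_smul f (mul_nonneg hc hc'.le), radExt_smul f hc'.le, smul_smul]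
  left := radExt_left h
  right := radExt_left h'
  near := radExt_near hf
  defect p q := by
    refine (radExt_near hf p q).trans (mul_le_mul_of_nonneg_left ?_ zero_le_two)
    have := norm_nonneg p
    have := norm_nonneg q
    have := le_max_left ‖p‖ ‖q‖
    have := le_max_right ‖p‖ ‖q‖
    rw [abs_le]; constructor <;> linarith

theorem tingley (f : sphere (0 : X) 1 → sphere (0 : Y) 1) (hf : Isometry f)
    (hs : Function.Surjective f) :
    ∃ T : X ≃ₗᵢ[ℝ] Y, ∀ x : sphere (0 : X) 1, T x = f x := by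
  obtain ⟨g, hg⟩ := hs.hasRightInverse
  have hl : ∀ u, g (f u) = u := fun u => hf.injective (hg (f u))
  have h := radExt_rad hf hl hg
  let e : X ≃ᵢ Y :=
    { toFun := radExt f
      invFun := radExt g
      left_inv := h.left
      right_inv := h.right
      isometry_toFun := Isometry.of_dist_eq fun p q => by
        rw [dist_eq_norm, dist_eq_norm]
        exact h.isometric p q }
  refine ⟨e.toRealLinearIsometryEquivOfMapZero (radExt_zero f), fun x => ?_⟩
  have := radExt_smul f zero_le_one x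
  rw [one_smul, one_smul] at this
  exact this

end Vale.Agent.P084b
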